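import Vale.Agent.P119.Stm2

namespace Vale.Agent.P119

open MeasureTheory Filter Topology Set
open scoped InnerProductSpace

namespace BalAux

theorem sq_line (x p : E3) (t : ℝ) :
    ‖x - t • p‖ ^ 2 = ‖x‖ ^ 2 - 2 * t * ⟪x, p⟫_ℝ + t ^ 2 * ‖p‖ ^ 2 := by
  rw [norm_sub_sq_real, inner_smul_right, norm_smul, mul_pow, Real.norm_eq_abs, sq_abs]
  ring

theorem prod_eq (v w p q : E3) (h1 : p + q = v + w)
    (h2 : ‖p‖ ^ 2 + ‖q‖ ^ 2 = ‖v‖ ^ 2 + ‖w‖ ^ 2) (c a b t : ℝ) (x : E3) :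
    gau c a b t (x, p) * gau c a b t (x, q) = gau c a b t (x, v) * gau c a b t (x, w) := by
  have h3 : ⟪x, p⟫_ℝ + ⟪x, q⟫_ℝ = ⟪x, v⟫_ℝ + ⟪x, w⟫_ℝ := by
    rw [← inner_add_right, ← inner_add_right, h1]
  unfold gau
  rw [mul_mul_mul_comm, mul_mul_mul_comm c _ c, ← Real.exp_add, ← Real.exp_add]
  congr 2
  simp only [sq_line]
  linear_combination (2 * a * t) * h3 - (a * t ^ 2 + b) * h2

end BalAux

theorem s_bal : S_bal := by
  intro v w V' hV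
  have h2 : ‖(1 / 2 : ℝ) • (v + w + V')‖ ^ 2 + ‖(1 / 2 : ℝ) • (v + w - V')‖ ^ 2
      = ‖v‖ ^ 2 + ‖w‖ ^ 2 := by
    rw [norm_smul, norm_smul, mul_pow, mul_pow, norm_add_sq_real (v + w), norm_sub_sq_real (v + w),
      hV, norm_add_sq_real, norm_sub_sq_real, Real.norm_eq_abs, sq_abs]
    ring
  refine ⟨h2, fun c a b t x => BalAux.prod_eq v w _ _ ?_ h2 c a b t x⟩
  module

end Vale.Agent.P119
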