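import Vale.Agent.P119.Stm

/-! Disjoint blocks of coordinates are independent. -/

open MeasureTheory Filter Topology Set
open scoped InnerProductSpace

namespace Vale.Agent.P119

theorem s_blk : S_blk := by
  intro α _ ν _ m s n e
  have h1 : MeasurePreserving (fun (z : Fin n → α) (p : Fin m × Fin s) => z (e p))
      (Measure.infinitePi fun _ => ν) (Measure.infinitePi fun _ => ν) :=
    ⟨by fun_prop, Measure.map_infinitePi_infinitePi_of_inj (P := fun _ : Fin n => ν) e.injective⟩
  have h2 : MeasurePreserving (MeasurableEquiv.curry (Fin m) (Fin s) α)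
      (Measure.infinitePi fun _ => ν) (Measure.infinitePi fun _ => Measure.infinitePi fun _ => ν) :=
    ⟨MeasurableEquiv.measurable _, Measure.infinitePi_map_curry fun _ _ => ν⟩
  have h3 := h2.comp h1
  simp only [Measure.infinitePi_eq_pi] at h3
  exact h3

end Vale.Agent.P119
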