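import Vale.Agent.P119.Stm

/-! Convergence of the splitting scheme. -/

open MeasureTheory Filter Topology Set
open scoped InnerProductSpace

namespace Vale.Agent.P119

theorem s_conv (hloc : S_loc) (hslip : S_slip) : S_conv := by
  intro Y _ _ F L x v t hF hx hv ht
  obtain ⟨C, hC, h⟩ := hloc Y F L x v t hF hx hv
  have hL : (0 : ℝ) ≤ 1 + L := by positivity
  have key : ∀ (r : ℝ) (j : ℕ), 0 ≤ r → j * r ≤ t →
      dist ((step F r)^[j] (x 0, v 0)) (x (j * r), v (j * r)) ≤
        j * (C * r ^ 2) * Real.exp ((1 + L) * (j * r)) := by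
    intro r j hr
    induction j with
    | zero => intro _; simp
    | succ j ih =>
      intro hj
      rw [Nat.cast_succ, add_mul, one_mul] at hj
      have h0 : 0 ≤ j * r := by positivity
      have h1 := ih (by linarith)
      have h2 := hslip Y F L r ((step F r)^[j] (x 0, v 0)) (x (j * r), v (j * r)) hF hr
      have h3 := h (j * r) r h0 hr hj
      have h4 := mul_le_mul_of_nonneg_left h1 (Real.exp_pos ((1 + L) * r)).le
      have h5 : 1 ≤ Real.exp ((1 + L) * (j * r + r)) := Real.one_le_exp (by positivity)
      have h6 : Real.exp ((1 + L) * (j * r + r)) =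
          Real.exp ((1 + L) * r) * Real.exp ((1 + L) * (j * r)) := by
        rw [← Real.exp_add, ← mul_add, add_comm r]
      have h7 := mul_le_mul_of_nonneg_left h5 (show 0 ≤ C * r ^ 2 by positivity)
      rw [Function.iterate_succ_apply', Nat.cast_succ, add_mul (j : ℝ) 1 r, one_mul]
      refine (dist_triangle _ (step F r (x (j * r), v (j * r))) _).trans ?_
      rw [h6] at h7 ⊢
      linarith
  rw [tendsto_iff_dist_tendsto_zero]
  have hlim := (tendsto_one_div_add_atTop_nhds_zero_nat (𝕜 := ℝ)).const_mul
    (C * t ^ 2 * Real.exp ((1 + L) * t))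
  rw [mul_zero] at hlim
  refine squeeze_zero (fun _ => dist_nonneg) (fun k => ?_) hlim
  have e : ((k + 1 : ℕ) : ℝ) * (t / (k + 1)) = t := by
    push_cast
    field_simp
  have h1 := key (t / (k + 1)) (k + 1) (by positivity) e.le
  rw [e] at h1
  refine h1.trans_eq ?_
  push_cast
  field_simp

end Vale.Agent.P119
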