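import Vale.Agent.P119.Stm

open MeasureTheory Filter Topology Set
open scoped InnerProductSpace

namespace Vale.Agent.P119

theorem s_cut : S_cut := by
  intro Φ δ hδ hΦ h1
  let f : ContDiffBump (0 : E3) := ⟨δ / 4, δ / 2, by linarith, by linarith⟩
  refine ⟨fun y => (1 - f y) * Φ y, ?_, ?_, ?_⟩
  · rw [contDiff_iff_contDiffAt]
    intro y
    by_cases hy : y = 0
    · subst hy
      have h : (fun y => (1 - f y) * Φ y) =ᶠ[𝓝 (0 : E3)] fun _ => (0 : ℝ) := by
        filter_upwards [Metric.closedBall_mem_nhds (0 : E3) f.rIn_pos] with w hw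
        rw [f.one_of_mem_closedBall hw]
        simp
      exact contDiffAt_const.congr_of_eventuallyEq h
    · have h2 : ContDiffAt ℝ 2 Φ y :=
        hΦ.contDiffAt (isOpen_compl_singleton.mem_nhds hy)
      exact (contDiffAt_const.sub f.contDiff.contDiffAt).mul h2
  · intro x hx
    simp [h1 x hx]
  · intro y hy
    have ho : IsOpen {w : E3 | δ / 2 < ‖w‖} := isOpen_lt continuous_const continuous_norm
    have hm : {w : E3 | δ / 2 < ‖w‖} ∈ 𝓝 y := ho.mem_nhds (by
      show δ / 2 < ‖y‖
      linarith)
    have h : (fun y => (1 - f y) * Φ y) =ᶠ[𝓝 y] Φ := by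
      filter_upwards [hm] with w hw
      have hz : f w = 0 := f.zero_of_le_dist (by
        show δ / 2 ≤ dist w 0
        rw [dist_zero_right]
        exact le_of_lt hw)
      rw [hz]
      simp
    unfold gradient
    rw [h.fderiv_eq]

end Vale.Agent.P119
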