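import Vale.Agent.P119.Stm

/-! Derivative of the Gaussian exponent along a trajectory. -/

open MeasureTheory Filter Topology Set
open scoped InnerProductSpace

namespace Vale.Agent.P119

namespace DQAux

theorem one (a b t : ℝ) {x v : ℝ → E3} {F : E3} (hx : HasDerivAt x (v t) t)
    (hv : HasDerivAt v F t) : HasDerivAt (fun s => a * ‖x s - s • v s‖ ^ 2 + b * ‖v s‖ ^ 2)
      (-(2 * a * t) * ⟪x t, F⟫_ℝ + 2 * (b + a * t ^ 2) * ⟪v t, F⟫_ℝ) t := by
  have h1 : HasDerivAt (fun s => x s - s • v s) (v t - (t • F + (1 : ℝ) • v t)) t :=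
    hx.fun_sub ((hasDerivAt_id' t).fun_smul hv)
  refine ((h1.norm_sq.const_mul a).fun_add (hv.norm_sq.const_mul b)).congr_deriv ?_
  rw [one_smul, show v t - (t • F + v t) = -(t • F) by abel, inner_neg_right,
    real_inner_smul_right, inner_sub_left, real_inner_smul_left]
  ring

end DQAux

theorem s_dQ : S_dQ := by
  intro a b n γ F t h
  rw [Finset.mul_sum, Finset.mul_sum, ← Finset.sum_add_distrib]
  exact HasDerivAt.fun_sum fun i _ => DQAux.one a b t (h i).1 (h i).2

end Vale.Agent.P119
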