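import Mathlib

/-! Definitions for the Boltzmann-Grad limit with Gaussian initial data. -/

open MeasureTheory Filter Topology Set
open scoped InnerProductSpace

namespace Vale.Agent.P119

/-- Euclidean three-space. -/
abbrev E3 : Type := EuclideanSpace ℝ (Fin 3)

/-- Configurations of `n` particles, each with a position and a velocity. -/
abbrev Cfg (n : ℕ) : Type := Fin n → E3 × E3

/-- Radial potentials of range one, smooth or blowing up at the origin, repulsive everywhere. -/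
def IsPot (Φ : E3 → ℝ) : Prop :=
  (∀ x y, ‖x‖ = ‖y‖ → Φ x = Φ y) ∧ ContDiffOn ℝ 2 Φ {0}ᶜ ∧ (∀ x, 1 ≤ ‖x‖ → Φ x = 0) ∧
    (ContDiff ℝ 2 Φ ∨ Tendsto Φ (𝓝[≠] 0) atTop) ∧ ∀ x, x ≠ 0 → ⟪x, gradient Φ x⟫_ℝ ≤ 0

/-- The force on each particle. -/
noncomputable def force (Φ : E3 → ℝ) (ε : ℝ) {n : ℕ} (x : Fin n → E3) : Fin n → E3 :=
  fun i => -(ε⁻¹ • ∑ j ∈ Finset.univ.erase i, gradient Φ (ε⁻¹ • (x i - x j)))

/-- Global solutions of the equations of Newton (distinct positions if `Φ` is singular). -/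
def Newton (Φ : E3 → ℝ) (ε : ℝ) {n : ℕ} (γ : ℝ → Cfg n) : Prop :=
  (ContDiff ℝ 2 Φ ∨ ∀ t i j, i ≠ j → (γ t i).1 ≠ (γ t j).1) ∧
    ∀ t i, HasDerivAt (fun s => (γ s i).1) (γ t i).2 t ∧
      HasDerivAt (fun s => (γ s i).2) (force Φ ε (fun j => (γ t j).1) i) t

/-- Configurations whose particles are at mutual distance more than `ε`. -/
def excl (ε : ℝ) (n : ℕ) : Set (Cfg n) := {z | ∀ i j, i ≠ j → ε < ‖(z i).1 - (z j).1‖}

/-- A measurable flow solving the equations of Newton from almost every point of `excl`. -/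
def IsFlow (Φ : E3 → ℝ) (ε : ℝ) {n : ℕ} (Fl : ℝ → Cfg n → Cfg n) : Prop :=
  (∀ t, Measurable (Fl t)) ∧
    ∀ᵐ z ∂(volume.restrict (excl ε n)), Fl 0 z = z ∧ Newton Φ ε (fun t => Fl t z)

/-- The tensor power of a one particle density. -/
noncomputable def tens (f : E3 × E3 → ℝ) {n : ℕ} (z : Cfg n) : ℝ := ∏ i, f (z i)

/-- The grand canonical normalising constant with activity `ε⁻¹ ^ 2`. -/
noncomputable def Zgc (f₀ : E3 × E3 → ℝ) (ε : ℝ) : ℝ :=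
  ∑' n : ℕ, (ε⁻¹ ^ 2) ^ n / (n.factorial : ℝ) * ∫ z in excl ε n, tens f₀ z

/-- The rescaled factorial marginal of order `s` at time `t`, tested against `φ`. -/
noncomputable def marg (f₀ : E3 × E3 → ℝ) (ε : ℝ) (Fl : ∀ n : ℕ, ℝ → Cfg n → Cfg n) (s : ℕ)
    (t : ℝ) (φ : Cfg s → ℝ) : ℝ :=
  ((ε⁻¹ ^ 2) ^ s)⁻¹ * ((Zgc f₀ ε)⁻¹ * ∑' n : ℕ, (ε⁻¹ ^ 2) ^ n / (n.factorial : ℝ) *
    ∫ z in excl ε n, (∑ e : Fin s ↪ Fin n, φ (fun k => Fl n t z (e k))) * tens f₀ z)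

/-- The freely transported Gaussian. -/
noncomputable def gau (c a b t : ℝ) (z : E3 × E3) : ℝ :=
  c * Real.exp (-(a * ‖z.1 - t • z.2‖ ^ 2 + b * ‖z.2‖ ^ 2))

end Vale.Agent.P119
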