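import Vale.Agent.P119.Defs

/-! The collision operator and regular kinetic intervals. -/

open MeasureTheory Filter Topology Set
open scoped InnerProductSpace

namespace Vale.Agent.P119

/-- `V'` is the outgoing velocity of the relative motion entering along `ρ + t V`. -/
def Scat (Φ : E3 → ℝ) (V ρ V' : E3) : Prop :=
  ∃ r r' : ℝ → E3, (ContDiff ℝ 2 Φ ∨ ∀ t, r t ≠ 0) ∧
    (∀ t, HasDerivAt r (r' t) t ∧ HasDerivAt r' (-((2 : ℝ) • gradient Φ (r t))) t) ∧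
    (∀ᶠ t in atBot, r t = ρ + t • V) ∧ ∀ᶠ t in atTop, 1 ≤ ‖r t‖ ∧ r' t = V'

/-- `S V ρ` is the outgoing velocity for almost every impact parameter `ρ` in the unit disc
of the plane orthogonal to `V`. -/
def IsScatMap (Φ : E3 → ℝ) (S : E3 → E3 → E3) : Prop :=
  ∀ V : E3, V ≠ 0 → ∀ᵐ ρ : (Submodule.span ℝ {V})ᗮ, ‖ρ‖ < 1 → Scat Φ V ρ (S V ρ)

/-- The collision operator of the scattering map `S`. -/
noncomputable def Qcol (S : E3 → E3 → E3) (f : E3 × E3 → ℝ) (x v : E3) : ℝ :=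
  ∫ w : E3, ∫ ρ in {ρ : (Submodule.span ℝ {v - w})ᗮ | ‖ρ‖ < 1},
    ‖v - w‖ * (f (x, (1 / 2 : ℝ) • (v + w + S (v - w) ρ)) *
      f (x, (1 / 2 : ℝ) • (v + w - S (v - w) ρ)) - f (x, v) * f (x, w))

/-- `f` is a nonnegative probability density solution of the Boltzmann equation on the interval
from `0` to `T` (derivative along free transport), with datum `f₀` and a Gaussian bound. -/
def Regular (S : E3 → E3 → E3) (β : ℝ) (f₀ : E3 × E3 → ℝ) (T : ℝ) (f : ℝ → E3 × E3 → ℝ) : Prop :=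
  f 0 = f₀ ∧ (∀ t ∈ Icc 0 T, (∀ z, 0 ≤ f t z) ∧ ∫ z, f t z = 1) ∧
    (∀ t ∈ Icc 0 T, ∀ x v : E3, HasDerivWithinAt (fun r => f r (x + r • v, v))
      (Qcol S (f t) (x + t • v) v) (Icc 0 T) t) ∧
    ∃ M : ℝ, ∀ t ∈ Icc 0 T, ∀ x v : E3, Real.exp (2 * β * ‖v‖ ^ 2) * f t (x, v) ≤ M

end Vale.Agent.P119
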