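import Vale.Agent.P119.Stm2

/-! Integrals over the unit disc of impact parameters. -/

open MeasureTheory Filter Topology Set
open scoped InnerProductSpace

namespace Vale.Agent.P119

theorem s_disc : S_disc := by
  intro V F B hV hB hF
  have h1 := (Submodule.span ℝ {V} : Submodule ℝ E3).finrank_add_finrank_orthogonal
  rw [finrank_span_singleton hV, finrank_euclideanSpace_fin] at h1
  have h2 : Module.finrank ℝ (Submodule.span ℝ {V} : Submodule ℝ E3)ᗮ = 2 * 1 := by omega
  have : Nontrivial (Submodule.span ℝ {V} : Submodule ℝ E3)ᗮ :=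
    Module.nontrivial_of_finrank_pos (R := ℝ) (by omega)
  have e : {ρ : (Submodule.span ℝ {V})ᗮ | ‖ρ‖ < 1} = Metric.ball 0 1 :=
    Set.ext fun _ => mem_ball_zero_iff.symm
  have hv := InnerProductSpace.volume_ball_of_dim_even h2 0 1
  rw [← e, ENNReal.ofReal_one, one_pow, one_mul, pow_one, Nat.factorial_one, Nat.cast_one,
    div_one] at hv
  have h3 := norm_setIntegral_le_of_norm_le_const_ae' (f := F) (C := B)
    (hv.trans_lt ENNReal.ofReal_lt_top) hF
  rw [measureReal_def, hv, ENNReal.toReal_ofReal Real.pi_pos.le] at h3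
  exact h3.trans ((mul_le_mul_of_nonneg_left Real.pi_le_four hB).trans_eq (mul_comm _ _))

end Vale.Agent.P119
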