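import Vale.Agent.P119.Stm

/-! Conservation of energy bounds the pair potential. -/

open MeasureTheory Filter Topology Set
open scoped InnerProductSpace

namespace Vale.Agent.P119

theorem s_en (hdU : S_dU) (hvir : S_vir) (hdQ : S_dQ) : S_en := by
  intro Φ ε n γ hΦ hε hN h0 t i j hij
  obtain ⟨-, v2, v3⟩ := hvir Φ ε n hΦ hε
  have hd : ∀ s, HasDerivAt (fun s => Qn 0 1 s (γ s) + 2 * Un Φ ε (γ s)) 0 s := fun s => by
    have h1 := hdQ 0 1 n γ (force Φ ε fun j => (γ s j).1) s (hN.2 s)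
    refine (h1.fun_add ((hdU Φ ε n γ hΦ hε hN s).const_mul 2)).congr_deriv ?_
    ring
  have hc := is_const_of_deriv_eq_zero (fun s => (hd s).differentiableAt) (fun s => (hd s).deriv) t 0
  have q0 : Qn 0 1 0 (γ 0) = ∑ k, ‖(γ 0 k).2‖ ^ 2 := by simp [Qn]
  have q1 : 0 ≤ Qn 0 1 t (γ t) := Finset.sum_nonneg fun k _ => by positivity
  have h3 := (v3 γ hN t).2 i j hij
  simp only [v2 _ h0, q0] at hc
  linarith

end Vale.Agent.P119
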