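import Vale.Agent.P119.Stm

/-! The entropy inequality. -/

open MeasureTheory Filter Topology Set
open scoped InnerProductSpace

namespace Vale.Agent.P119

namespace EntAux

theorem pt {c : ℝ} (hc : 0 < c) (x q r m : ℝ) : (x - q + r) * (c * Real.exp (-r)) ≤
    Real.exp (-m) * (Real.exp x * (c * Real.exp (-q))) + (m - 1) * (c * Real.exp (-r)) := by
  have h1 := Real.add_one_le_exp (x - q + r - m)
  have h2 : Real.exp (-m) * (Real.exp x * (c * Real.exp (-q))) =
      Real.exp (x - q + r - m) * (c * Real.exp (-r)) := by
    have : Real.exp (-m) * Real.exp x * Real.exp (-q) =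
        Real.exp (x - q + r - m) * Real.exp (-r) := by
      rw [← Real.exp_add, ← Real.exp_add, ← Real.exp_add]
      congr 1
      ring
    linear_combination c * this
  have h3 : 0 ≤ c * Real.exp (-r) := by positivity
  rw [h2, ← add_mul]
  exact mul_le_mul_of_nonneg_right (by linarith) h3

end EntAux

theorem s_ent : S_ent := by
  intro Ω _ μ D T q₀ q X c Λ _ hT hq hX hc hL h0 hY hg hΛ hp
  have hν : Measure.map T (μ.restrict D) ≤ μ := Measure.le_iff.2 fun s hs => by
    rw [Measure.map_apply hT hs, Measure.restrict_apply (hT hs), inter_comm]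
    exact hL s
  have gm : Measurable fun z => Real.exp (X z) * (c * Real.exp (-q z)) :=
    hX.exp.mul (hq.neg.exp.const_mul c)
  have g1 : Integrable (fun z => Real.exp (X (T z)) * (c * Real.exp (-q (T z))))
      (μ.restrict D) :=
    (integrable_map_measure gm.aestronglyMeasurable hT.aemeasurable).1 (hg.mono_measure hν)
  have g2 : ∫ z in D, Real.exp (X (T z)) * (c * Real.exp (-q (T z))) ∂μ ≤ Real.exp Λ := by
    rw [← integral_map hT.aemeasurable gm.aestronglyMeasurable]
    exact (integral_mono_measure hν (ae_of_all _ fun z => by positivity) hg).trans hΛ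
  set p := ∫ z in D, c * Real.exp (-q₀ z) ∂μ with hp'
  have h1 := integral_mono hY ((g1.const_mul (Real.exp (-(Λ - Real.log p)))).add
    (h0.const_mul (Λ - Real.log p - 1))) fun z => EntAux.pt hc _ _ _ _
  simp only [Pi.add_apply] at h1
  rw [integral_add (g1.const_mul _) (h0.const_mul _), integral_const_mul,
    integral_const_mul (Λ - Real.log p - 1), ← hp'] at h1
  have h2 := mul_le_mul_of_nonneg_left g2 (Real.exp_pos (-(Λ - Real.log p))).le
  rw [← Real.exp_add, neg_sub, sub_add_cancel, Real.exp_log hp] at h2
  rw [neg_sub] at h1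
  linarith

end Vale.Agent.P119
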