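import Vale.Agent.P119.Stm

open MeasureTheory Filter Topology Set
open scoped InnerProductSpace

namespace Vale.Agent.P119

theorem s_fixA (hpath : S_path) (hg3 : S_g3) (hliou : S_liou) (hent : S_ent) (htime : S_time)
    (hfixI : S_fixI) : S_fixA := by
  intro Φ ε c a b n Fl hΦ hε hP hFl hp t ht
  obtain ⟨hg, hI0, -⟩ := hg3 c a b n hP
  have hc := hP.1
  have ha := hP.2.1
  have hb := hP.2.2.1
  have hae := ae_restrict_mem (μ := (volume : Measure (Cfg n))) (meas_excl ε n)
  have h0 : ∫ z in excl ε n, Qn a b 0 (Fl 0 z) * tens (gau c a b 0) z =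
      ∫ z in excl ε n, Qn a b 0 z * tens (gau c a b 0) z := by
    refine integral_congr_ae ?_
    filter_upwards [hFl.2] with z hz
    simp only [hz.1]
  have htens : (fun z : Cfg n => c ^ n * Real.exp (-Qn a b 0 z)) =
      fun z => tens (gau c a b 0) z := funext fun z => ((hg 0).2.2.1 z).symm
  rw [← h0]
  haveI i1 : SigmaFinite (volume : Measure (E3 × E3)) := inferInstance
  haveI i2 : SigmaFinite (volume : Measure (Cfg n)) := Measure.pi.sigmaFinite _
  refine htime (Cfg n) (volume.restrict (excl ε n))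
    (fun s z => Qn a b s (Fl s z) * tens (gau c a b 0) z) a b _ t ha hb ht ?_ ?_ ?_ ?_ ?_
  · intro s
    exact ((hg s).1.comp (hFl.1 s)).mul (cont_tens c a b 0 n).measurable
  · intro s z
    exact mul_nonneg ((hg s).2.1 _) (tens_pos hc a b 0 z).le
  · intro s hs
    exact hfixI Φ ε c a b n Fl hΦ hε hP hFl s hs
  · filter_upwards [hFl.2, hae] with z hz hz'
    obtain ⟨h1, h2⟩ := hpath Φ ε a b n (fun t => Fl t z) hΦ hε ha hb hz.2 (by simpa [hz.1] using hz')
    refine ⟨h1.mul continuous_const, fun r hr => ?_⟩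
    have h3 := mul_le_mul_of_nonneg_right (h2 r hr) (tens_pos hc a b 0 z).le
    have h4 : ∫ s in (0 : ℝ)..r, 2 * a * s / (b + a * s ^ 2) ^ 2 *
        (Qn a b s (Fl s z) * tens (gau c a b 0) z) =
        (∫ s in (0 : ℝ)..r, 2 * a * s / (b + a * s ^ 2) ^ 2 * Qn a b s (Fl s z)) *
          tens (gau c a b 0) z := by
      rw [← intervalIntegral.integral_mul_const]
      simp only [mul_assoc]
    rw [h4]
    calc _ = (Qn a b r (Fl r z) / (b + a * r ^ 2) +
          ∫ s in (0 : ℝ)..r, 2 * a * s / (b + a * s ^ 2) ^ 2 * Qn a b s (Fl s z)) *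
            tens (gau c a b 0) z := by ring
      _ ≤ _ := h3
      _ = _ := by ring
  · intro s hs
    have hIs := hfixI Φ ε c a b n Fl hΦ hε hP hFl s hs
    have hI0' : IntegrableOn (fun z => Qn a b 0 z * tens (gau c a b 0) z) (excl ε n) :=
      hI0.integrableOn
    have e1 : (fun z : Cfg n => ((0 : ℝ) - Qn a b s (Fl s z) + Qn a b 0 z) *
        (c ^ n * Real.exp (-Qn a b 0 z))) = fun z =>
        Qn a b 0 z * tens (gau c a b 0) z - Qn a b s (Fl s z) * tens (gau c a b 0) z := by
      funext z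
      rw [← (hg 0).2.2.1 z]
      ring
    have e2 : (fun z : Cfg n => Real.exp 0 * (c ^ n * Real.exp (-Qn a b s z))) =
        fun z => tens (gau c a b s) z := by
      funext z
      rw [← (hg s).2.2.1 z, Real.exp_zero, one_mul]
    have key := hent (Cfg n) volume (excl ε n) (Fl s) (fun z => Qn a b 0 z) (fun z => Qn a b s z)
      (fun _ => 0) (c ^ n) 0 (meas_excl ε n) (hFl.1 s) (hg s).1 measurable_const (pow_pos hc n)
      (hliou Φ ε n Fl s hΦ hε hFl hs) (by rw [htens]; exact (hg 0).2.2.2.1.integrableOn)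
      (by rw [e1]; exact hI0'.sub hIs) (by rw [e2]; exact (hg s).2.2.2.1)
      (by rw [e2, (hg s).2.2.2.2, Real.exp_zero]) (by rw [htens]; exact hp)
    rw [e1, htens, integral_sub hI0' hIs, zero_sub] at key
    rw [h0]
    exact key

end Vale.Agent.P119
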