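import Vale.Agent.P119.Stm

/-! The entropy bound for a fixed number of particles. -/

open MeasureTheory Filter Topology Set
open scoped InnerProductSpace

namespace Vale.Agent.P119

theorem s_fixB (hg3 : S_g3) (hliou : S_liou) (hent : S_ent) (hfixI : S_fixI) (hfixA : S_fixA) :
    S_fixB := by
  intro Φ ε c a b n Fl hΦ hε hP hF hp t ht X M Λ hX hM hΛ
  obtain ⟨g1, g2, -⟩ := hg3 c a b n hP
  have e : ∀ (s : ℝ) (z : Cfg n), c ^ n * Real.exp (-Qn a b s z) = tens (gau c a b s) z :=
    fun s z => ((g1 s).2.2.1 z).symm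
  have i0 : IntegrableOn (fun z : Cfg n => tens (gau c a b 0) z) (excl ε n) :=
    (g1 0).2.2.2.1.integrableOn
  have i1 : IntegrableOn (fun z => X (Fl t z) * tens (gau c a b 0) z) (excl ε n) :=
    Integrable.bdd_mul (c := M) i0 (hX.comp (hF.1 t)).aestronglyMeasurable
      (ae_of_all _ fun z => hM _)
  have i2 := hfixI Φ ε c a b n Fl hΦ hε hP hF t ht
  have i3 : IntegrableOn (fun z : Cfg n => Qn a b 0 z * tens (gau c a b 0) z) (excl ε n) :=
    g2.integrableOn
  have i4 : Integrable fun z => Real.exp (X z) * tens (gau c a b t) z :=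
    Integrable.bdd_mul (c := Real.exp M) (g1 t).2.2.2.1 hX.exp.aestronglyMeasurable
      (ae_of_all _ fun z => by
        rw [Real.norm_eq_abs, abs_of_pos (Real.exp_pos _)]
        exact Real.exp_le_exp.2 ((le_abs_self _).trans (hM z)))
  have i5 : IntegrableOn (fun z => X (Fl t z) * tens (gau c a b 0) z -
      Qn a b t (Fl t z) * tens (gau c a b 0) z) (excl ε n) := i1.sub i2
  have h := hent (Cfg n) volume (excl ε n) (Fl t) (Qn a b 0) (Qn a b t) X (c ^ n) Λ
    (meas_excl ε n) (hF.1 t) (g1 t).1 hX (pow_pos hP.1 n) (hliou Φ ε n Fl t hΦ hε hF ht)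
  simp only [e, add_mul, sub_mul] at h
  have h1 := h i0 (i5.add i3) i4 hΛ hp
  rw [integral_add i5 i3, integral_sub i1 i2] at h1
  have h2 := hfixA Φ ε c a b n Fl hΦ hε hP hF hp t ht
  change _ ≤ pn c a b ε n * (Λ - Real.log (pn c a b ε n)) at h1
  linarith

end Vale.Agent.P119
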