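import Vale.Agent.P119.Stm

/-! From disjoint blocks to all ordered tuples of particles. -/

open MeasureTheory Filter Topology Set
open scoped InnerProductSpace

namespace Vale.Agent.P119

namespace FixDAux

theorem up (hg3 : S_g3) (hperm : S_perm) (hfixC : S_fixC) {Φ : E3 → ℝ} {ε c a b : ℝ} {n : ℕ}
    {Fl : ℝ → Cfg n → Cfg n} (hΦ : IsPot Φ) (hε : 0 < ε) (hP : Par c a b) (hF : IsFlow Φ ε Fl)
    (hp : 0 < pn c a b ε n) {t : ℝ} (ht : 0 ≤ t) {m s : ℕ} {φ : Cfg s → ℝ} {g : ℝ} (hm : 1 ≤ m)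
    (hms : m * s ≤ n) (hφ : Measurable φ) (hb : ∀ y, |φ y| ≤ 1) (hg : 0 < g) :
    (∫ z in excl ε n, (∑ e : Fin s ↪ Fin n, φ (fun k => Fl t z (e k))) * tens (gau c a b 0) z) -
      (∫ y, φ y * tens (gau c a b t) y) * pn c a b ε n * (n.descFactorial s : ℝ) ≤
      (n.descFactorial s : ℝ) * pn c a b ε n *
        (g / 2 + (1 + a * t ^ 2 / b) * -Real.log (pn c a b ε n) / (m * g)) := by
  have hi : ∀ e : Fin s ↪ Fin n, Integrable
      (fun z => φ (fun k => Fl t z (e k)) * tens (gau c a b 0) z)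
      (volume.restrict (excl ε n)) := fun e => by
    refine (((hg3 c a b n hP).1 0).2.2.2.1.integrableOn).bdd_mul (c := 1) ?_
      (Eventually.of_forall fun z => hb _)
    exact (hφ.comp (measurable_pi_lambda _ fun k =>
      (measurable_pi_apply (e k)).comp (hF.1 t))).aestronglyMeasurable
  simp only [Finset.sum_mul]
  rw [integral_finset_sum _ fun e _ => hi e]
  have m0 : (0 : ℝ) < m := by exact_mod_cast hm
  have k := hperm m s n
    (fun e => ∫ z in excl ε n, φ (fun k => Fl t z (e k)) * tens (gau c a b 0) z)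
    (pn c a b ε n * ((∫ y, φ y * tens (gau c a b t) y) + g / 2 +
      (1 + a * t ^ 2 / b) * -Real.log (pn c a b ε n) / (m * g))) hm hms fun e =>
    (hfixC Φ ε c a b n Fl hΦ hε hP hF hp t ht m s e φ g hφ hb hg).trans (le_of_eq (by
      field_simp))
  linarith

end FixDAux

open FixDAux in
theorem s_fixD (hg3 : S_g3) (hperm : S_perm) (hfixC : S_fixC) : S_fixD := by
  intro Φ ε c a b n Fl hΦ hε hP hF hp t ht m s φ g hm hms hφ hb hg
  have h1 := up hg3 hperm hfixC hΦ hε hP hF hp ht hm hms hφ hb hg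
  have h2 := up hg3 hperm hfixC hΦ hε hP hF hp ht (φ := fun y => -φ y) hm hms hφ.neg
    (fun y => by rw [abs_neg]; exact hb y) hg
  simp only [Finset.sum_neg_distrib, neg_mul, integral_neg] at h2
  exact abs_le.2 ⟨by linarith, h1⟩

end Vale.Agent.P119
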