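import Vale.Agent.P119.Stm

open MeasureTheory Filter Topology Set
open scoped InnerProductSpace

namespace Vale.Agent.P119

namespace FixEAux

theorem key1 (R L K g n m s : ℝ) (hR : 0 ≤ R) (hK : 0 ≤ K) (hg : 0 < g) (hm : 0 < m)
    (hn : 0 ≤ n) (hL : L ≤ 2 * n ^ 2 * K) (hnm : n ≤ 2 * s * m) :
    R * L / (m * g) ≤ 4 * s * R * K / g * n := by
  have h1 : L ≤ 4 * s * K * n * m := by
    have h2 : n * K * n ≤ n * K * (2 * s * m) :=
      mul_le_mul_of_nonneg_left hnm (mul_nonneg hn hK)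
    nlinarith
  rw [div_le_iff₀ (mul_pos hm hg)]
  have e : 4 * s * R * K / g * n * (m * g) = R * (4 * s * K * n * m) := by
    field_simp
  rw [e]
  exact mul_le_mul_of_nonneg_left h1 hR

theorem key2 (R K g n s : ℝ) (hR : 1 ≤ R) (hg : 0 < g) (hg1 : g ≤ 1) (hs : 1 ≤ s)
    (h : 1 / 2 < n * K) : 2 ≤ g / 2 + 4 * s * R * K / g * n := by
  have e : 4 * s * R * K / g * n = 4 * (s * R) * (n * K) / g := by ring
  have h1 : 1 ≤ s * R := by nlinarith
  have h2 : 2 ≤ 4 * (s * R) * (n * K) / g := by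
    rw [le_div_iff₀ hg]
    nlinarith
  rw [e]
  linarith

end FixEAux

theorem s_fixE (hp : S_p) (hplow : S_plow) (hfixD : S_fixD) (htriv : S_triv) : S_fixE := by
  intro Φ ε c a b K n Fl hΦ hε hP hF hK hB t ht s φ g hs hφ hφ1 hg hg1
  obtain ⟨hp0, hpn⟩ := hp c a b ε K hP hε hB
  have hT := (htriv ε c a b t n s (Fl t) φ hP (hF.1 t) hφ hφ1).2
  have ha : 0 < a := hP.2.1
  have hb : 0 < b := hP.2.2.1
  have hR0 : 0 ≤ a * t ^ 2 / b := by positivity
  have hD : 0 ≤ (n.descFactorial s : ℝ) * pn c a b ε n :=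
    mul_nonneg (Nat.cast_nonneg _) (hpn n).1
  have hsr : (1 : ℝ) ≤ s := by exact_mod_cast hs
  by_cases hns : n < s
  · have h0 : (n.descFactorial s : ℝ) = 0 := by
      rw [Nat.descFactorial_eq_zero_iff_lt.mpr hns, Nat.cast_zero]
    refine hT.trans ?_
    rw [h0]
    simp
  by_cases hnK : (n : ℝ) * K ≤ 1 / 2
  · obtain ⟨hpos, hL⟩ := hplow (pn c a b ε) K n hK hp0 (fun k => (hpn k).2.2) hnK
    have hsn : s ≤ n := not_lt.mp hns
    have hm1 : 1 ≤ n / s := (Nat.le_div_iff_mul_le (by omega)).mpr (by omega)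
    have hm2 : n / s * s ≤ n := Nat.div_mul_le_self n s
    have hm3 : n ≤ 2 * s * (n / s) := by
      have h1 : n < s * (n / s + 1) := Nat.lt_mul_div_succ n (by omega)
      have h2 : s * (n / s + 1) ≤ s * (2 * (n / s)) := Nat.mul_le_mul_left _ (by omega)
      calc n ≤ s * (2 * (n / s)) := by omega
        _ = 2 * s * (n / s) := by ring
    have h := hfixD Φ ε c a b n Fl hΦ hε hP hF hpos t ht (n / s) s φ g hm1 hm2 hφ hφ1 hg
    refine h.trans (mul_le_mul_of_nonneg_left ?_ hD)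
    have h4 := FixEAux.key1 (1 + a * t ^ 2 / b) (-Real.log (pn c a b ε n)) K g n
      ((n / s : ℕ) : ℝ) s (by linarith) hK hg (by exact_mod_cast hm1) (Nat.cast_nonneg _) hL
      (by exact_mod_cast hm3)
    linarith
  · refine hT.trans (mul_le_mul_of_nonneg_left ?_ hD)
    exact FixEAux.key2 (1 + a * t ^ 2 / b) K g n s (by linarith) hg hg1 hsr (not_le.mp hnK)

end Vale.Agent.P119
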