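import Vale.Agent.P119.Stm

/-! Integrability of the transported exponent. -/

open MeasureTheory Filter Topology Set
open scoped InnerProductSpace

namespace Vale.Agent.P119

theorem s_fixI (hpath : S_path) (hg3 : S_g3) : S_fixI := by
  intro Φ ε c a b n Fl hΦ hε hP hF t ht
  obtain ⟨h1, h2, -⟩ := hg3 c a b n hP
  obtain ⟨hc, ha, hb, -⟩ := hP
  have hd : 0 < b + a * t ^ 2 := by positivity
  refine Integrable.mono' ((h2.const_mul ((b + a * t ^ 2) / b)).integrableOn)
    ((((h1 t).1.comp (hF.1 t)).mul (cont_tens c a b 0 n).measurable).aestronglyMeasurable) ?_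
  filter_upwards [hF.2, ae_restrict_mem (meas_excl ε n)] with z hz hz'
  have h3 := (hpath Φ ε a b n (fun t => Fl t z) hΦ hε ha hb hz.2 (by rwa [hz.1])).2 t ht
  have h4 : 0 ≤ ∫ s in (0 : ℝ)..t, 2 * a * s / (b + a * s ^ 2) ^ 2 * Qn a b s (Fl s z) :=
    intervalIntegral.integral_nonneg ht fun s hs =>
      mul_nonneg (div_nonneg (mul_nonneg (by positivity) hs.1) (sq_nonneg _)) ((h1 s).2.1 _)
  have h5 : Qn a b t (Fl t z) / (b + a * t ^ 2) ≤ Qn a b 0 z / b := by
    rw [hz.1] at h3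
    linarith
  have p := (tens_pos hc a b 0 z).le
  rw [Real.norm_eq_abs, abs_of_nonneg (mul_nonneg ((h1 t).2.1 _) p), ← mul_assoc]
  refine mul_le_mul_of_nonneg_right ?_ p
  rw [div_le_iff₀ hd] at h5
  exact h5.trans (le_of_eq (by ring))

end Vale.Agent.P119
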