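import Vale.Agent.P119.Stm

open MeasureTheory Filter Topology Set
open scoped InnerProductSpace

namespace Vale.Agent.P119

namespace G1Aux

theorem key (s : ℝ) (hs : 0 ≤ s) : s * Real.exp (-s) ≤ 4 * Real.exp (-(s / 4)) := by
  have h1 : s / 4 + 1 ≤ Real.exp (s / 4) := Real.add_one_le_exp _
  have h2 : Real.exp (-s) ≤ Real.exp (-(s / 2)) := Real.exp_le_exp.2 (by linarith)
  have h3 : Real.exp (s / 4) * Real.exp (-(s / 2)) = Real.exp (-(s / 4)) := by
    rw [← Real.exp_add]; congr 1; ring
  have h4 := Real.exp_pos (-(s / 2))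
  calc s * Real.exp (-s) ≤ s * Real.exp (-(s / 2)) := mul_le_mul_of_nonneg_left h2 hs
    _ ≤ 4 * Real.exp (s / 4) * Real.exp (-(s / 2)) :=
        mul_le_mul_of_nonneg_right (by linarith) h4.le
    _ = _ := by rw [mul_assoc, h3]

end G1Aux

theorem s_g1 (hshear : S_shear) : S_g1 := by
  rintro c a b ⟨hc, ha, hb, h1⟩
  have hi : Integrable (gau c a b 0) := Integrable.of_integral_ne_zero (by rw [h1]; norm_num)
  refine ⟨fun t => ?_, ?_⟩
  · have hmp : MeasurePreserving (step (fun _ : E3 => (0 : E3)) (-t)) volume volume :=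
      hshear E3 volume _ (-t) continuous_const
    have e : gau c a b t = gau c a b 0 ∘ step (fun _ : E3 => (0 : E3)) (-t) := by
      funext z
      simp [gau, step, sub_eq_add_neg]
    refine ⟨e ▸ hmp.integrable_comp_of_integrable hi, ?_⟩
    rw [← h1, e]
    have h2 := integral_map (μ := volume) hmp.measurable.aemeasurable
      (f := gau c a b 0) (cont_gau c a b 0).aestronglyMeasurable
    rw [hmp.map_eq] at h2
    exact h2.symm
  · have : (volume : Measure (E3 × E3)).IsAddHaarMeasure :=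
      Measure.prod.instIsAddHaarMeasure volume volume
    have h2 : Integrable (fun z : E3 × E3 => 4 * gau c a b 0 ((1 / 2 : ℝ) • z)) :=
      (hi.comp_smul (R := (1 / 2 : ℝ)) (by norm_num)).const_mul 4
    have hg := cont_gau c a b 0
    refine h2.mono' (Continuous.aestronglyMeasurable (by fun_prop)) (Eventually.of_forall fun z => ?_)
    have h0 : 0 ≤ a * ‖z.1‖ ^ 2 + b * ‖z.2‖ ^ 2 := by positivity
    have k := G1Aux.key _ h0
    have e1 : gau c a b 0 z = c * Real.exp (-(a * ‖z.1‖ ^ 2 + b * ‖z.2‖ ^ 2)) := by simp [gau]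
    have e2 : gau c a b 0 ((1 / 2 : ℝ) • z) =
        c * Real.exp (-((a * ‖z.1‖ ^ 2 + b * ‖z.2‖ ^ 2) / 4)) := by
      simp only [gau, zero_smul, sub_zero, Prod.smul_fst, Prod.smul_snd, norm_smul]
      congr 3
      norm_num
      ring
    rw [Real.norm_of_nonneg (mul_nonneg h0 (gau_pos hc a b 0 z).le), e1, e2]
    nlinarith [mul_le_mul_of_nonneg_left k hc.le]

end Vale.Agent.P119
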