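import Vale.Agent.P119.Stm

/-! The Gaussian mass of a thin cylinder. -/

open MeasureTheory Filter Topology Set
open scoped InnerProductSpace

namespace Vale.Agent.P119

namespace G2Aux

theorem gi {b : ℝ} (hb : 0 < b) : Integrable fun v : E3 => Real.exp (-b * ‖v‖ ^ 2) := by
  refine Integrable.of_integral_ne_zero ?_
  rw [GaussianFourier.integral_rexp_neg_mul_sq_norm hb]
  exact (Real.rpow_pos_of_pos (div_pos Real.pi_pos hb) _).ne'

end G2Aux

theorem s_g2 : S_g2 := by
  rintro c a b ⟨hc, ha, hb, -⟩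
  obtain ⟨J, hJ⟩ : ∃ J : ℝ, J = ∫ v : E3, Real.exp (-b * ‖v‖ ^ 2) := ⟨_, rfl⟩
  have J0 : 0 ≤ J := hJ ▸ integral_nonneg fun v => (Real.exp_pos _).le
  obtain ⟨B, hB⟩ : ∃ B : ℝ, B = (volume : Measure E3).real (Metric.ball 0 1) := ⟨_, rfl⟩
  have B0 : 0 ≤ B := hB ▸ measureReal_nonneg
  refine ⟨c * B * J + 1, by positivity, fun y ε hε => ?_⟩
  have hS : MeasurableSet {z : E3 × E3 | ‖z.1 - y‖ ≤ ε} :=
    (isClosed_le (by fun_prop) continuous_const).measurableSet
  have i1 : Integrable ((Metric.closedBall y ε).indicator (1 : E3 → ℝ)) :=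
    IntegrableOn.integrable_indicator
      (integrableOn_const (isCompact_closedBall y ε).measure_ne_top) measurableSet_closedBall
  have i2 : Integrable (fun z : E3 × E3 => c * ((Metric.closedBall y ε).indicator
      (1 : E3 → ℝ) z.1 * Real.exp (-b * ‖z.2‖ ^ 2))) := (i1.mul_prod (G2Aux.gi hb)).const_mul c
  rw [← integral_indicator hS]
  refine (integral_mono_of_nonneg (Eventually.of_forall fun z =>
    indicator_nonneg (fun z _ => (gau_pos hc a b 0 z).le) z) i2
    (Eventually.of_forall fun z => ?_)).trans ?_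
  · by_cases hz : z ∈ {z : E3 × E3 | ‖z.1 - y‖ ≤ ε}
    · have hz' : z.1 ∈ Metric.closedBall y ε := mem_closedBall_iff_norm.2 hz
      simp only [indicator_of_mem hz, indicator_of_mem hz', Pi.one_apply, one_mul, gau]
      refine mul_le_mul_of_nonneg_left (Real.exp_le_exp.2 ?_) hc.le
      have := mul_nonneg ha.le (sq_nonneg ‖z.1 - (0 : ℝ) • z.2‖)
      linarith
    · simp only [indicator_of_notMem hz]
      exact mul_nonneg hc.le (mul_nonneg (indicator_nonneg (fun _ _ => zero_le_one) _)
        (Real.exp_pos _).le)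
  · rw [integral_const_mul, Measure.volume_eq_prod,
      integral_prod_mul ((Metric.closedBall y ε).indicator (1 : E3 → ℝ))
        fun v : E3 => Real.exp (-b * ‖v‖ ^ 2),
      integral_indicator_one measurableSet_closedBall,
      Measure.addHaar_real_closedBall _ _ hε.le, ← hJ, ← hB, finrank_euclideanSpace_fin]
    have := pow_pos hε 3
    nlinarith

end Vale.Agent.P119
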