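import Vale.Agent.P119.Stm

/-! Tensor powers of the Gaussian. -/

open MeasureTheory Filter Topology Set
open scoped InnerProductSpace

namespace Vale.Agent.P119

theorem s_g3 (hg1 : S_g1) : S_g3 := by
  intro c a b n hP
  obtain ⟨h1, h2⟩ := hg1 c a b hP
  obtain ⟨-, ha, hb, -⟩ := hP
  refine ⟨fun t => ⟨?_, fun z => Finset.sum_nonneg fun i _ => by positivity, fun z => ?_,
    Integrable.fintype_prod (f := fun _ => gau c a b t) fun _ => (h1 t).1, ?_⟩, ?_,
    fun ε => meas_excl ε n⟩
  · refine Continuous.measurable ?_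
    unfold Qn
    fun_prop
  · simp only [tens, gau, Qn]
    rw [Finset.prod_mul_distrib, Finset.prod_const, Finset.card_univ, Fintype.card_fin,
      ← Real.exp_sum, Finset.sum_neg_distrib]
  · simp only [tens]
    rw [integral_fintype_prod_volume_eq_prod fun _ => gau c a b t]
    simp [(h1 t).2]
  · have e : ∀ z : Cfg n, Qn a b 0 z * tens (gau c a b 0) z = ∑ i, ∏ j,
        (if j = i then a * ‖(z j).1‖ ^ 2 + b * ‖(z j).2‖ ^ 2 else 1) * gau c a b 0 (z j) :=
      fun z => by
        simp only [Finset.prod_mul_distrib]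
        simp [Qn, tens, Finset.sum_mul]
    simp only [e]
    refine integrable_finsetSum _ fun i _ => Integrable.fintype_prod (f := fun j (w : E3 × E3) =>
      (if j = i then a * ‖w.1‖ ^ 2 + b * ‖w.2‖ ^ 2 else 1) * gau c a b 0 w) fun j => ?_
    by_cases h : j = i
    · simpa only [if_pos h] using h2
    · simpa only [if_neg h, one_mul] using (h1 0).1

end Vale.Agent.P119
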