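import Vale.Agent.P119.Stm

/-! Grand canonical averaging. -/

open MeasureTheory Filter Topology Set
open scoped InnerProductSpace

namespace Vale.Agent.P119

theorem s_gc (hshift : S_shift) (hgc1 : S_gc1) (hgc2 : S_gc2) : S_gc := by
  intro μ η α β θ s p I hμ hη hα hβ hθ h0 hp hI
  have ex : ∀ n : ℕ, ∃ g : ℝ, I n = (n.descFactorial s : ℝ) * g ∧
      |g - θ * p n| ≤ p n * (α + β * n) := fun n => by
    have h := hI n
    have p0 := (hp n).1
    rcases (Nat.cast_nonneg (α := ℝ) (n.descFactorial s)).eq_or_lt with e | e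
    · rw [← e, mul_zero, sub_zero, zero_mul, zero_mul, abs_nonpos_iff] at h
      exact ⟨θ * p n, by rw [h, ← e, zero_mul], by rw [sub_self, abs_zero]; positivity⟩
    · refine ⟨I n / n.descFactorial s, (mul_div_cancel₀ _ e.ne').symm, ?_⟩
      rw [div_sub' e.ne', abs_div, abs_of_pos e, div_le_iff₀' e, ← mul_assoc, ← mul_assoc,
        mul_rotate _ θ]
      exact h
  choose g g1 g2 using ex
  have q := hgc2 η p hη h0 hp
  have tp : ∀ x : ℝ, |θ * x| ≤ |x| := fun x => by
    rw [abs_mul]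
    exact mul_le_of_le_one_left (abs_nonneg _) hθ
  obtain ⟨-, -, s3⟩ := hshift μ (1 + α + β) s g hμ.le fun n => by
    have a1 := abs_add_le (g n - θ * p n) (θ * p n)
    have a2 := tp (p n)
    have a3 := mul_le_of_le_one_left (by positivity : 0 ≤ α + β * n) (q n 0).1
    have n0 : (0 : ℝ) ≤ n := n.cast_nonneg
    rw [abs_of_nonneg (hp n).1] at a2
    rw [sub_add_cancel] at a1
    nlinarith [g2 n, (q n 0).1, mul_nonneg hα n0]
  obtain ⟨z0, z1, z2, z3⟩ := hgc1 μ (α + β * s + s * s * η) (β + s * η) p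
    (fun m => g (m + s) - θ * p m) hμ (by positivity) (by positivity) h0
    (fun n => ⟨(hp n).1, (hp n).2.1⟩) fun m => by
      obtain ⟨-, b1, b2⟩ := q m s
      have a1 := abs_sub_le (g (m + s)) (θ * p (m + s)) (θ * p m)
      have a2 := tp (p (m + s) - p m)
      have a3 := (g2 (m + s)).trans (mul_le_mul_of_nonneg_right b1 (by positivity))
      rw [mul_sub, abs_sub_comm (p _), abs_of_nonneg (sub_nonneg.2 b1)] at a2
      push_cast at a3
      linarith
  have e : ∑' m : ℕ, μ ^ m / (m.factorial : ℝ) * g (m + s) =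
      ∑' m : ℕ, μ ^ m / (m.factorial : ℝ) * (g (m + s) - θ * p m) +
        θ * ∑' n : ℕ, μ ^ n / (n.factorial : ℝ) * p n := by
    rw [← tsum_mul_left, ← z2.tsum_add (z1.mul_left θ)]
    exact tsum_congr fun m => by ring
  simp only [g1]
  rw [s3, e, mul_left_comm _ (μ ^ s), inv_mul_cancel_left₀ (pow_pos hμ s).ne', mul_add,
    mul_left_comm _ θ, inv_mul_cancel₀ z0.ne', mul_one, add_sub_cancel_right, abs_mul,
    abs_of_pos (inv_pos.2 z0), inv_mul_le_iff₀' z0]
  exact z3.trans_eq (by ring)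

end Vale.Agent.P119
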