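import Vale.Agent.P119.Stm

/-! Grand canonical sums: the first estimate. -/

open MeasureTheory Filter Topology Set
open scoped InnerProductSpace

namespace Vale.Agent.P119

theorem s_gc1 (hshift : S_shift) : S_gc1 := by
  intro μ A B p D hμ hA hB p0 hp hD
  have p1 : ∀ n, p n ≤ 1 := fun n => by
    induction n with
    | zero => exact p0.le
    | succ n ih => exact (hp n).2.trans ih
  have w0 : ∀ n : ℕ, 0 ≤ μ ^ n / (n.factorial : ℝ) := fun n => by positivity
  have s0 : Summable fun n : ℕ => μ ^ n / (n.factorial : ℝ) * p n :=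
    Summable.of_nonneg_of_le (fun n => mul_nonneg (w0 n) (hp n).1)
      (fun n => mul_le_of_le_one_right (w0 n) (p1 n)) (Real.summable_pow_div_factorial μ)
  obtain ⟨s1, s2, e⟩ := hshift μ 1 1 p hμ.le fun n => by
    rw [abs_of_nonneg (hp n).1]
    linarith [p1 n, (Nat.cast_nonneg n : (0 : ℝ) ≤ n)]
  simp only [Nat.descFactorial_one, pow_one] at s1 e
  have z : (1 : ℝ) ≤ ∑' n : ℕ, μ ^ n / (n.factorial : ℝ) * p n := by
    simpa [p0] using s0.le_tsum 0 fun n _ => mul_nonneg (w0 n) (hp n).1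
  have h1 : ∑' m : ℕ, μ ^ m / (m.factorial : ℝ) * p (m + 1) ≤
      ∑' n : ℕ, μ ^ n / (n.factorial : ℝ) * p n :=
    s2.tsum_le_tsum (fun n => mul_le_mul_of_nonneg_left (hp n).2 (w0 n)) s0
  have h2 := (s0.hasSum.mul_left A).add (s1.hasSum.mul_left B)
  have h3 : ∀ n : ℕ, ‖μ ^ n / (n.factorial : ℝ) * D n‖ ≤ A * (μ ^ n / (n.factorial : ℝ) * p n) +
      B * (μ ^ n / (n.factorial : ℝ) * (n * p n)) := fun n => by
    rw [Real.norm_eq_abs, abs_mul, abs_of_nonneg (w0 n)]
    exact (mul_le_mul_of_nonneg_left (hD n) (w0 n)).trans_eq (by ring)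
  refine ⟨by linarith, s0, Summable.of_norm_bounded h2.summable h3,
    (tsum_of_norm_bounded h2 h3).trans ?_⟩
  rw [e, add_mul, mul_assoc]
  exact add_le_add le_rfl (mul_le_mul_of_nonneg_left (mul_le_mul_of_nonneg_left h1 hμ.le) hB)

end Vale.Agent.P119
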