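import Vale.Agent.P119.Stm

/-! Slow decay of the exclusion probabilities. -/

open MeasureTheory Filter Topology Set
open scoped InnerProductSpace

namespace Vale.Agent.P119

theorem s_gc2 : S_gc2 := by
  intro η p hη h0 hp m s
  have an : Antitone p := antitone_nat_of_succ_le fun n => (hp n).2.1
  refine ⟨h0 ▸ an m.zero_le, an (m.le_add_right s), ?_⟩
  induction s with
  | zero => simp
  | succ s ih =>
    have a1 := (hp (m + s)).2.2
    have a2 := mul_le_mul_of_nonneg_left (an (m.le_add_right s))
      (by positivity : 0 ≤ ((m : ℝ) + s) * η)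
    have a3 : 0 ≤ ((s : ℝ) + 1) * (η * p m) := mul_nonneg (by positivity) (mul_nonneg hη (hp m).1)
    rw [← add_assoc]
    push_cast at a1 ⊢
    linarith

end Vale.Agent.P119
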