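import Vale.Agent.P119.Stm2

/-! A Gronwall lemma with a decreasing Gaussian weight. -/

open MeasureTheory Filter Topology Set
open scoped InnerProductSpace

namespace Vale.Agent.P119

namespace GronAux

theorem quad {C κ : ℝ} (hκ : 0 < κ) (r : ℝ) : 2 * C * (1 + r) ≤ 2 * C + C ^ 2 / κ + κ * r ^ 2 := by
  have h : 0 ≤ (C - κ * r) ^ 2 / κ := by positivity
  have e : (C - κ * r) ^ 2 / κ = C ^ 2 / κ + κ * r ^ 2 - 2 * C * r := by
    field_simp
    ring
  linarith

theorem dB (M A l κ r t : ℝ) :
    HasDerivAt (fun s => M * Real.exp (A * s) * Real.exp (-((l - κ * s) * r ^ 2)))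
      ((A + κ * r ^ 2) * (M * Real.exp (A * t) * Real.exp (-((l - κ * t) * r ^ 2)))) t := by
  have h1 : HasDerivAt (fun s => A * s) A t := by simpa using (hasDerivAt_id t).const_mul A
  have h2 : HasDerivAt (fun s => -((l - κ * s) * r ^ 2)) (κ * r ^ 2) t := by
    have h3 : HasDerivAt (fun s => κ * s) κ t := by simpa using (hasDerivAt_id t).const_mul κ
    exact (((h3.const_sub l).mul_const (r ^ 2)).neg).congr_deriv (by ring)
  exact ((h1.exp.const_mul M).mul h2.exp).congr_deriv (by ring)

end GronAux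

open GronAux in
theorem s_gron : S_gron := by
  intro ι h D r T l C N₀ hT hl hC hN hr h0 hD hb hs
  obtain ⟨κ, hκd⟩ : ∃ κ, κ = l / (2 * T) := ⟨_, rfl⟩
  have hκ : 0 < κ := by rw [hκd]; positivity
  have hκT : κ * T = l / 2 := by rw [hκd]; field_simp
  obtain ⟨A, hA⟩ : ∃ A, A = 2 * C + C ^ 2 / κ := ⟨_, rfl⟩
  have hA0 : 0 ≤ A := by rw [hA]; positivity
  have hq : ∀ x, 2 * C * (1 + x) ≤ A + κ * x ^ 2 := fun x => by rw [hA]; exact quad hκ x
  have key : ∀ k : ℕ, ∀ t ∈ Icc 0 T, ∀ i,
      |h t i| ≤ N₀ * (1 / 2) ^ k * Real.exp (A * t) * Real.exp (-((l - κ * t) * r i ^ 2)) := by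
    intro k
    induction k with
    | zero =>
      intro t ht i
      refine (hb t ht i).trans (mul_le_mul ?_ (Real.exp_le_exp.2 ?_) (Real.exp_pos _).le ?_)
      · rw [pow_zero, mul_one]
        exact le_mul_of_one_le_right hN (Real.one_le_exp (mul_nonneg hA0 ht.1))
      · have := mul_nonneg (mul_nonneg hκ.le ht.1) (sq_nonneg (r i))
        linarith
      · positivity
    | succ k ih =>
      intro t ht i
      refine image_norm_le_of_norm_deriv_right_le_deriv_boundary (f := fun s => h s i)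
        (f' := fun s => D s i) (a := 0) (b := T) (fun s hs => (hD s hs i).continuousWithinAt)
        (fun s hs => (hD s (Ico_subset_Icc_self hs) i).mono_of_mem_nhdsWithin
          (Icc_mem_nhdsGE_of_mem hs)) ?_ (dB (N₀ * (1 / 2) ^ (k + 1)) A l κ (r i)) ?_ ht
      · rw [h0, norm_zero]
        positivity
      · intro s hs'
        have hs2 := Ico_subset_Icc_self hs'
        have h1 : κ * s ≤ κ * T := mul_le_mul_of_nonneg_left hs2.2 hκ.le
        have h2 : 0 ≤ κ * s := mul_nonneg hκ.le hs2.1
        refine (hs s hs2 (l - κ * s) (N₀ * (1 / 2) ^ k * Real.exp (A * s)) (by linarith)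
          (by linarith) (by positivity) (ih s hs2) i).trans ?_
        refine le_trans (le_of_eq (by ring)) (mul_le_mul_of_nonneg_right (hq (r i)) ?_)
        positivity
  intro t ht i
  have hl : Tendsto (fun k : ℕ =>
      N₀ * (1 / 2) ^ k * Real.exp (A * t) * Real.exp (-((l - κ * t) * r i ^ 2))) atTop (𝓝 0) := by
    have := (((tendsto_pow_atTop_nhds_zero_of_lt_one (r := (1 / 2 : ℝ)) (by norm_num)
      (by norm_num)).const_mul N₀).mul_const (Real.exp (A * t))).mul_const
      (Real.exp (-((l - κ * t) * r i ^ 2)))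
    simpa only [mul_zero, zero_mul] using this
  exact abs_nonpos_iff.1 (ge_of_tendsto' hl fun k => key k t ht i)

end Vale.Agent.P119
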