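import Vale.Agent.P119.Stm

open MeasureTheory Filter Topology Set
open scoped InnerProductSpace

namespace Vale.Agent.P119

namespace HoefAux

theorem one {β : Type} [MeasurableSpace β] (μ : Measure β) [IsProbabilityMeasure μ] (φ : β → ℝ)
    (g : ℝ) (hφ : Measurable φ) (hb : ∀ y, |φ y| ≤ 1) :
    ∫ y, Real.exp (g * (φ y - ∫ y, φ y ∂μ)) ∂μ ≤ Real.exp (g ^ 2 / 2) := by
  have h := (ProbabilityTheory.hasSubgaussianMGF_of_mem_Icc (μ := μ) (a := -1) (b := 1)
    hφ.aemeasurable (Eventually.of_forall fun y => abs_le.1 (hb y))).mgf_le g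
  have e : (((‖(1 : ℝ) - -1‖₊ / 2) ^ 2 : NNReal) : ℝ) = 1 := by
    push_cast
    norm_num
  rw [e, one_mul] at h
  exact h

end HoefAux

theorem s_hoef (hblk : S_blk) : S_hoef := by
  intro α _ ν _ m s n e φ g hφ hb
  have h1 := HoefAux.one (Measure.pi fun _ : Fin s => ν) φ g hφ hb
  generalize ∫ y, φ y ∂(Measure.pi fun _ : Fin s => ν) = θ at h1 ⊢
  have hp := hblk α ν m s n e
  have hm : Measurable fun y : Fin m → Fin s → α => ∏ j, Real.exp (g * (φ (y j) - θ)) := by
    fun_prop
  have h2 := integral_map (μ := Measure.pi fun _ : Fin n => ν) hp.measurable.aemeasurable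
    hm.aestronglyMeasurable
  rw [hp.map_eq, integral_fintype_prod_eq_pow (fun y => Real.exp (g * (φ y - θ))),
    Fintype.card_fin] at h2
  simp only [Finset.mul_sum, Real.exp_sum]
  rw [← h2, mul_div_assoc, Real.exp_nat_mul]
  exact pow_le_pow_left₀ (integral_nonneg fun y => (Real.exp_pos _).le) h1 m

end Vale.Agent.P119
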