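import Vale.Agent.P119.Stm2

open MeasureTheory Filter Topology Set
open scoped InnerProductSpace

namespace Vale.Agent.P119

theorem s_L1 : S_L1 := by
  intro Ω _ μ F G B hF hG h
  have mF := hF.1.stronglyMeasurable_mk.measurable
  have mG := hG.1.stronglyMeasurable_mk.measurable
  have m : Measurable fun y => if hG.1.mk G y ≤ hF.1.mk F y then (1 : ℝ) else -1 :=
    Measurable.ite (measurableSet_le mG mF) measurable_const measurable_const
  have b : ∀ y, |if hG.1.mk G y ≤ hF.1.mk F y then (1 : ℝ) else -1| ≤ 1 := by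
    intro y
    split_ifs <;> simp
  have h1 := h _ m b
  rw [← integral_sub (hF.bdd_mul m.aestronglyMeasurable (ae_of_all _ b))
    (hG.bdd_mul m.aestronglyMeasurable (ae_of_all _ b))] at h1
  refine le_trans (le_of_eq (integral_congr_ae ?_)) ((le_abs_self _).trans h1)
  filter_upwards [hF.1.ae_eq_mk, hG.1.ae_eq_mk] with y a1 a2
  rw [← a1, ← a2]
  split_ifs with hy
  · rw [abs_of_nonneg (sub_nonneg.2 hy)]
    ring
  · rw [abs_of_neg (sub_neg.2 (not_le.1 hy))]
    ring

end Vale.Agent.P119
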