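import Vale.Agent.P119.Stm

open MeasureTheory Filter Topology Set
open scoped InnerProductSpace

namespace Vale.Agent.P119

namespace LiouAux

/-- Good starting points. -/
def Gd (Φ : E3 → ℝ) (ε : ℝ) {n : ℕ} (Fl : ℝ → Cfg n → Cfg n) : Set (Cfg n) :=
  {z | z ∈ excl ε n ∧ Fl 0 z = z ∧ Newton Φ ε (fun t => Fl t z)}

theorem red {Φ : E3 → ℝ} {ε : ℝ} {n : ℕ} {Fl : ℝ → Cfg n → Cfg n} (h : IsFlow Φ ε Fl)
    (S : Set (Cfg n)) : volume (excl ε n ∩ S) ≤ volume (Gd Φ ε Fl ∩ S) := by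
  have h1 := (ae_restrict_iff' (meas_excl ε n)).1 h.2
  refine measure_mono_ae ?_
  filter_upwards [h1] with z hz hz'
  exact ⟨⟨hz'.1, hz hz'.1⟩, hz'.2⟩

theorem delta {Φ : E3 → ℝ} (h : Tendsto Φ (𝓝[≠] 0) atTop) (k : ℝ) :
    ∃ δ : ℝ, 0 < δ ∧ ∀ y : E3, y ≠ 0 → Φ y ≤ k → δ ≤ ‖y‖ := by
  have h1 := h.eventually (eventually_gt_atTop k)
  obtain ⟨δ, hδ, h2⟩ := Metric.mem_nhdsWithin_iff.1 h1
  refine ⟨δ, hδ, fun y hy hk => ?_⟩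
  by_contra h3
  have h4 : k < Φ y := h2 ⟨by simpa using not_le.1 h3, hy⟩
  linarith

theorem slice (hliouCfg : S_liouCfg) (hlip : S_lip) (hcut : S_cut) (hen : S_en)
    {Φ : E3 → ℝ} {ε : ℝ} {n : ℕ} (Fl : ℝ → Cfg n → Cfg n) {t : ℝ} (hΦ : IsPot Φ) (hε : 0 < ε)
    (ht : 0 ≤ t) (hn : ¬ ContDiff ℝ 2 Φ) (k : ℝ) (A : Set (Cfg n)) :
    volume ((Gd Φ ε Fl ∩ {z | ∑ i, ‖(z i).2‖ ^ 2 ≤ k}) ∩ Fl t ⁻¹' A) ≤ volume A := by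
  obtain ⟨δ, hδ, hd⟩ := delta (hΦ.2.2.2.1.resolve_left hn) k
  obtain ⟨Ψ, hΨ, hΨ0, hg⟩ := hcut Φ δ hδ hΦ.2.1 hΦ.2.2.1
  obtain ⟨L, hL⟩ := hlip Ψ ε n hΨ hΨ0
  refine hliouCfg n (fun x => force Ψ ε x) L _ Fl t hL ht ?_ A
  rintro z ⟨⟨hz, h0, hN⟩, hk⟩
  refine ⟨h0, fun r i => ⟨(hN.2 r i).1, ?_⟩⟩
  have he : force Ψ ε (fun j => (Fl r z j).1) i = force Φ ε (fun j => (Fl r z j).1) i := by
    unfold force
    congr 2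
    refine Finset.sum_congr rfl fun j hj => hg _ (hd _ ?_ ?_)
    · have hne := hN.1.resolve_left hn r i j (Finset.ne_of_mem_erase hj).symm
      exact smul_ne_zero (inv_ne_zero hε.ne') (sub_ne_zero.2 hne)
    · have h1 := hen Φ ε n (fun t => Fl t z) hΦ hε hN (by simpa [h0] using hz) r i j
        (Finset.ne_of_mem_erase hj).symm
      simp only [h0] at h1
      exact h1.trans hk
  simp only [he]
  exact (hN.2 r i).2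

end LiouAux

theorem s_liou (hliouCfg : S_liouCfg) (hlip : S_lip) (hcut : S_cut) (hen : S_en) : S_liou := by
  intro Φ ε n Fl t hΦ hε hFl ht A
  refine (LiouAux.red hFl _).trans ?_
  by_cases hc : ContDiff ℝ 2 Φ
  · obtain ⟨L, hL⟩ := hlip Φ ε n hc hΦ.2.2.1
    refine hliouCfg n (fun x => force Φ ε x) L _ Fl t hL ht ?_ A
    rintro z ⟨_, h0, hN⟩
    exact ⟨h0, fun r i => hN.2 r i⟩
  · have hm : Monotone (fun k : ℕ =>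
        (LiouAux.Gd Φ ε Fl ∩ {z | ∑ i, ‖(z i).2‖ ^ 2 ≤ (k : ℝ)}) ∩ Fl t ⁻¹' A) := by
      intro k l hkl z hz
      refine ⟨⟨hz.1.1, ?_⟩, hz.2⟩
      exact le_trans (show ∑ i, ‖(z i).2‖ ^ 2 ≤ (k : ℝ) from hz.1.2) (Nat.cast_le.2 hkl)
    have hu : LiouAux.Gd Φ ε Fl ∩ Fl t ⁻¹' A = ⋃ k : ℕ,
        (LiouAux.Gd Φ ε Fl ∩ {z | ∑ i, ‖(z i).2‖ ^ 2 ≤ (k : ℝ)}) ∩ Fl t ⁻¹' A := by
      ext z
      constructor
      · intro hz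
        obtain ⟨k, hk⟩ := exists_nat_ge (∑ i, ‖(z i).2‖ ^ 2)
        exact mem_iUnion.2 ⟨k, ⟨hz.1, hk⟩, hz.2⟩
      · intro hz
        obtain ⟨k, hk⟩ := mem_iUnion.1 hz
        exact ⟨hk.1.1, hk.2⟩
    rw [hu, hm.measure_iUnion]
    exact iSup_le fun k => LiouAux.slice hliouCfg hlip hcut hen Fl hΦ hε ht hc k A

end Vale.Agent.P119
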