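import Vale.Agent.P119.Stm

open MeasureTheory Filter Topology Set
open scoped InnerProductSpace

namespace Vale.Agent.P119

namespace LiouCfgAux

theorem cont_symm (n : ℕ) :
    Continuous (fun p : (Fin n → E3) × (Fin n → E3) =>
      ((MeasurableEquiv.arrowProdEquivProdArrow E3 E3 (Fin n)).symm p : Cfg n)) := by
  have : (fun p : (Fin n → E3) × (Fin n → E3) =>
      ((MeasurableEquiv.arrowProdEquivProdArrow E3 E3 (Fin n)).symm p : Cfg n)) =
      fun p i => (p.1 i, p.2 i) := by
    funext p i
    rfl
  rw [this]
  fun_prop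

end LiouCfgAux

theorem s_liouCfg (hshear : S_shear) (hconv : S_conv) (hmlim : S_mlim) : S_liouCfg := by
  intro n F L G Fl t hL ht hG A
  let e := MeasurableEquiv.arrowProdEquivProdArrow E3 E3 (Fin n)
  have he : MeasurePreserving e volume volume :=
    volume_measurePreserving_arrowProdEquivProdArrow E3 E3 (Fin n)
  have hes : MeasurePreserving e.symm volume volume := he.symm e
  let S : ℕ → Cfg n → Cfg n := fun k z =>
    e.symm ((step F (t / (k + 1)))^[k + 1] (e z))
  have hS : ∀ k, MeasurePreserving (S k) volume volume := by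
    intro k
    have h1 : MeasurePreserving (step F (t / (k + 1)))
        (volume : Measure ((Fin n → E3) × (Fin n → E3))) volume := by
      rw [Measure.volume_eq_prod]
      exact hshear (Fin n → E3) volume F _ hL.continuous
    exact hes.comp ((h1.iterate (k + 1)).comp he)
  have hlf : IsLocallyFiniteMeasure (volume : Measure (Cfg n)) := by
    rw [volume_pi]
    exact Measure.pi.isLocallyFiniteMeasure
  refine hmlim (Cfg n) volume S G (Fl t) hS ?_ A
  intro z hz
  obtain ⟨h0, hd⟩ := hG z hz
  have hx : ∀ r, HasDerivAt (fun s => fun i => (Fl s z i).1) (fun i => (Fl r z i).2) r :=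
    fun r => hasDerivAt_pi.2 fun i => (hd r i).1
  have hv : ∀ r, HasDerivAt (fun s => fun i => (Fl s z i).2)
      (F (fun i => (Fl r z i).1)) r :=
    fun r => hasDerivAt_pi.2 fun i => (hd r i).2
  have hc := hconv (Fin n → E3) F L (fun s => fun i => (Fl s z i).1)
    (fun s => fun i => (Fl s z i).2) t hL hx hv ht
  have h2 := ((LiouCfgAux.cont_symm n).tendsto _).comp hc
  have h3 : ((fun i => (Fl 0 z i).1, fun i => (Fl 0 z i).2) :
      (Fin n → E3) × (Fin n → E3)) = e z := by
    rw [h0]
    rfl
  have h4 : ((MeasurableEquiv.arrowProdEquivProdArrow E3 E3 (Fin n)).symm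
      ((fun i => (Fl t z i).1, fun i => (Fl t z i).2) :
      (Fin n → E3) × (Fin n → E3)) : Cfg n) = Fl t z := by
    funext i
    rfl
  rw [h4, h3] at h2
  exact h2

end Vale.Agent.P119
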