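import Vale.Agent.P119.Stm

open MeasureTheory Filter Topology Set
open scoped InnerProductSpace

namespace Vale.Agent.P119

namespace LipAux

theorem grad_lip (Ψ : E3 → ℝ) (h : ContDiff ℝ 2 Ψ) (h0 : ∀ x, 1 ≤ ‖x‖ → Ψ x = 0) :
    ∃ L : NNReal, LipschitzWith L (gradient Ψ) := by
  have hc : HasCompactSupport Ψ := by
    refine HasCompactSupport.intro (isCompact_closedBall (0 : E3) 1) fun x hx => h0 x ?_
    rw [Metric.mem_closedBall, dist_zero_right] at hx
    exact (not_le.1 hx).le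
  have hd : ContDiff ℝ 1 (fderiv ℝ Ψ) := h.fderiv_right (by norm_num)
  obtain ⟨L, hL⟩ := ContDiff.lipschitzWith_of_hasCompactSupport (hc.fderiv (𝕜 := ℝ)) hd
    (by norm_num)
  refine ⟨L, LipschitzWith.of_dist_le_mul fun x y => ?_⟩
  have := hL.dist_le_mul x y
  unfold gradient
  rwa [LinearIsometryEquiv.dist_map]

end LipAux

theorem s_lip : S_lip := by
  intro Ψ ε n h h0
  obtain ⟨L, hL⟩ := LipAux.grad_lip Ψ h h0
  refine ⟨Real.toNNReal (|ε⁻¹| * (n * (L * (|ε⁻¹| * 2)))), LipschitzWith.of_dist_le_mul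
    fun x y => ?_⟩
  have hp : 0 ≤ |ε⁻¹| * (n * (L * (|ε⁻¹| * 2))) := by positivity
  rw [Real.coe_toNNReal _ hp, dist_pi_le_iff (by positivity)]
  intro i
  have ht : ∀ j, ‖gradient Ψ (ε⁻¹ • (x i - x j)) - gradient Ψ (ε⁻¹ • (y i - y j))‖ ≤
      L * (|ε⁻¹| * 2) * dist x y := by
    intro j
    have h1 := hL.dist_le_mul (ε⁻¹ • (x i - x j)) (ε⁻¹ • (y i - y j))
    rw [dist_eq_norm, dist_eq_norm, ← smul_sub, norm_smul, Real.norm_eq_abs] at h1
    have h2 : ‖x i - x j - (y i - y j)‖ ≤ 2 * dist x y := by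
      have e : x i - x j - (y i - y j) = (x i - y i) - (x j - y j) := by abel
      have a1 := dist_le_pi_dist x y i
      have a2 := dist_le_pi_dist x y j
      rw [dist_eq_norm] at a1 a2
      rw [e]
      linarith [norm_sub_le (x i - y i) (x j - y j)]
    have h3 : (L : ℝ) * (|ε⁻¹| * ‖x i - x j - (y i - y j)‖) ≤ L * (|ε⁻¹| * (2 * dist x y)) := by
      gcongr
    linarith
  simp only [force]
  rw [dist_neg_neg, dist_eq_norm, ← smul_sub, norm_smul, Real.norm_eq_abs,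
    ← Finset.sum_sub_distrib]
  have h4 : ‖∑ j ∈ Finset.univ.erase i,
      (gradient Ψ (ε⁻¹ • (x i - x j)) - gradient Ψ (ε⁻¹ • (y i - y j)))‖ ≤
      n * (L * (|ε⁻¹| * 2) * dist x y) := by
    refine (norm_sum_le _ _).trans ?_
    refine (Finset.sum_le_card_nsmul _ _ _ fun j _ => ht j).trans ?_
    rw [nsmul_eq_mul]
    have hc : ((Finset.univ.erase i).card : ℝ) ≤ n := by
      have := Finset.card_le_univ (Finset.univ.erase i)
      rw [Fintype.card_fin] at this
      exact_mod_cast this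
    gcongr
  calc _ ≤ |ε⁻¹| * (n * (L * (|ε⁻¹| * 2) * dist x y)) := by gcongr
    _ = _ := by ring

end Vale.Agent.P119
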