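import Vale.Agent.P119.Stm

/-! Local error of the splitting scheme. -/

open MeasureTheory Filter Topology Set
open scoped InnerProductSpace

namespace Vale.Agent.P119

namespace LocAux

theorem mv {Y : Type} [NormedAddCommGroup Y] [NormedSpace ℝ Y] {f f' : ℝ → Y} {s h B : ℝ}
    (hf : ∀ t, HasDerivAt f (f' t) t) (hB : ∀ r ∈ Icc s (s + h), ‖f' r‖ ≤ B) :
    ∀ r ∈ Icc s (s + h), ‖f r - f s‖ ≤ B * h := by
  intro r hr
  have hs : s ∈ Icc s (s + h) := ⟨le_rfl, hr.1.trans hr.2⟩
  have k := (convex_Icc s (s + h)).norm_image_sub_le_of_norm_hasDerivWithin_le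
    (fun t _ => (hf t).hasDerivWithinAt) hB hs hr
  refine k.trans (mul_le_mul_of_nonneg_left ?_ ((norm_nonneg _).trans (hB s hs)))
  rw [Real.norm_eq_abs, abs_of_nonneg (sub_nonneg.2 hr.1)]
  linarith [hr.2]

end LocAux

theorem s_loc : S_loc := by
  intro Y _ _ F L x v T hF hx hv
  have cx : Continuous x := continuous_iff_continuousAt.2 fun t => (hx t).continuousAt
  have cv : Continuous v := continuous_iff_continuousAt.2 fun t => (hv t).continuousAt
  obtain ⟨V, hV⟩ := (isCompact_Icc (a := (0 : ℝ)) (b := T)).exists_bound_of_continuousOn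
    cv.continuousOn
  obtain ⟨M, hM⟩ := (isCompact_Icc (a := (0 : ℝ)) (b := T)).exists_bound_of_continuousOn
    (hF.continuous.comp cx).continuousOn
  refine ⟨|M| + 2 * L * |V|, by positivity, fun s h hs hh hT => ?_⟩
  have sub : Icc s (s + h) ⊆ Icc 0 T := Icc_subset_Icc hs hT
  have bV : ∀ r ∈ Icc s (s + h), ‖v r‖ ≤ |V| := fun r hr => (hV r (sub hr)).trans (le_abs_self _)
  have bM : ∀ r ∈ Icc s (s + h), ‖F (x r)‖ ≤ |M| := fun r hr =>
    (hM r (sub hr)).trans (le_abs_self _)
  have dv := LocAux.mv hv bM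
  have dx := LocAux.mv hx bV
  have e : s + h ∈ Icc s (s + h) := ⟨by linarith, le_rfl⟩
  have k1 := LocAux.mv (f := fun r => x r - r • v s) (f' := fun r => v r - v s)
    (fun t => by simpa using (hx t).fun_sub ((hasDerivAt_id' t).smul_const (v s))) dv _ e
  have k2 := LocAux.mv (f := fun r => v r - r • F (x s + h • v s))
    (f' := fun r => F (x r) - F (x s + h • v s)) (B := L * (|V| * h + |V| * h))
    (fun t => by simpa using (hv t).fun_sub ((hasDerivAt_id' t).smul_const (F (x s + h • v s))))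
    (fun r hr => by
      refine (hF.norm_sub_le _ _).trans (mul_le_mul_of_nonneg_left ?_ L.2)
      rw [← sub_sub]
      refine (norm_sub_le _ _).trans (add_le_add (dx r hr) ?_)
      rw [norm_smul, Real.norm_of_nonneg hh, mul_comm]
      exact mul_le_mul_of_nonneg_right (bV s ⟨le_rfl, e.1⟩) hh) _ e
  have p1 : 0 ≤ |M| * h ^ 2 := by positivity
  have p2 : 0 ≤ L * |V| * h ^ 2 := by positivity
  rw [Prod.dist_eq, dist_comm, dist_eq_norm, dist_comm, dist_eq_norm]
  refine max_le ((le_of_eq ?_).trans (k1.trans (by linarith)))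
    ((le_of_eq ?_).trans (k2.trans (by linarith)))
  · simp only [step, add_smul]
    exact congrArg _ (by abel)
  · simp only [step, add_smul]
    exact congrArg _ (by abel)

end Vale.Agent.P119
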