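import Vale.Agent.P119.Stm2

open MeasureTheory Filter Topology Set
open scoped InnerProductSpace

namespace Vale.Agent.P119

namespace MainAux

theorem arith {ε K R : ℝ} {s : ℕ} (h0 : 0 < ε) (h1 : ε < 1) (hK : 0 ≤ K) (hR : 0 ≤ R) :
    √ε / 2 + R * (K * ε ^ 3) / √ε * (ε⁻¹ ^ 2 + s) + s * (ε⁻¹ ^ 2 + s) * (K * ε ^ 3) ≤
      (1 / 2 + R * K * (1 + s) + s * (1 + s) * K) * √ε := by
  have g0 : 0 < √ε := Real.sqrt_pos.2 h0
  have g2 : √ε * √ε = ε := Real.mul_self_sqrt h0.le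
  have g1 : √ε ≤ 1 := Real.sqrt_le_one.2 h1.le
  have hs : (0 : ℝ) ≤ s := Nat.cast_nonneg s
  have e1 : ε ^ 3 * (ε⁻¹ ^ 2 + s) ≤ ε * (1 + s) := by
    have : ε ^ 3 * (ε⁻¹ ^ 2 + s) = ε * (1 + ε ^ 2 * s) := by field_simp
    rw [this]
    have : ε ^ 2 ≤ 1 := pow_le_one₀ h0.le h1.le
    gcongr
    nlinarith
  have e2 : ε ≤ √ε := by nlinarith
  have e3 : R * (K * ε ^ 3) / √ε * (ε⁻¹ ^ 2 + s) ≤ R * K * (1 + s) * √ε := by
    rw [div_mul_eq_mul_div, div_le_iff₀ g0]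
    calc R * (K * ε ^ 3) * (ε⁻¹ ^ 2 + s) = R * K * (ε ^ 3 * (ε⁻¹ ^ 2 + s)) := by ring
      _ ≤ R * K * (ε * (1 + s)) := by gcongr
      _ = R * K * (1 + s) * √ε * √ε := by rw [mul_assoc (R * K * (1 + s)), g2]; ring
  have e4 : s * (ε⁻¹ ^ 2 + s) * (K * ε ^ 3) ≤ s * (1 + s) * K * √ε :=
    calc s * (ε⁻¹ ^ 2 + s) * (K * ε ^ 3) = s * K * (ε ^ 3 * (ε⁻¹ ^ 2 + s)) := by ring
      _ ≤ s * K * (ε * (1 + s)) := by gcongr
      _ ≤ s * K * (√ε * (1 + s)) := by gcongr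
      _ = s * (1 + s) * K * √ε := by ring
  linarith

end MainAux

theorem s_main (hg2 : S_g2) (hp : S_p) (hfixE : S_fixE) (htriv : S_triv) (hgc : S_gc) :
    S_main := by
  intro Φ c a b T s hΦ hP hs
  obtain ⟨K, hK, hb⟩ := hg2 c a b hP
  have ha := hP.2.1
  have hb0 := hP.2.2.1
  refine ⟨1 / 2 + 4 * s * (1 + a * T ^ 2 / b) * K * (1 + s) + s * (1 + s) * K, ?_⟩
  intro ε h0 h1 Fl hFl t t0 tT φ hφ hφ1
  have g0 : 0 < √ε := Real.sqrt_pos.2 h0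
  have hp' := hp c a b ε (K * ε ^ 3) hP h0 fun y => hb y ε h0
  have key := hgc (ε⁻¹ ^ 2) (K * ε ^ 3) (√ε / 2)
    (4 * s * (1 + a * T ^ 2 / b) * (K * ε ^ 3) / √ε) (∫ y, φ y * tens (gau c a b t) y) s
    (pn c a b ε) (fun n => ∫ z in excl ε n,
      (∑ e : Fin s ↪ Fin n, φ (fun k => Fl n t z (e k))) * tens (gau c a b 0) z)
    (by positivity) (by positivity) (by positivity) (by positivity)
    (htriv ε c a b t 0 s id φ hP measurable_id hφ hφ1).1 hp'.1 hp'.2 (fun n => by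
      refine (hfixE Φ ε c a b (K * ε ^ 3) n (Fl n) hΦ h0 hP (hFl n) (by positivity)
        (fun y => hb y ε h0) t t0 s φ (√ε) hs hφ hφ1 g0 (Real.sqrt_le_one.2 h1.le)).trans ?_
      have := (hp'.2 n).1
      gcongr)
  exact key.trans (MainAux.arith h0 h1 hK.le (by positivity))

end Vale.Agent.P119
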