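import Vale.Agent.P119.Stm

/-! Pointwise limits of measure preserving maps do not increase the measure. -/

open MeasureTheory Filter Topology Set
open scoped InnerProductSpace

namespace Vale.Agent.P119

theorem s_mlim : S_mlim := by
  intro Ω _ _ _ μ _ S G T hS hT A
  rw [Set.measure_eq_iInf_isOpen A μ]
  refine le_iInf fun U => le_iInf fun hAU => le_iInf fun hU => ?_
  have h1 : G ∩ T ⁻¹' A ⊆ ⋃ N : ℕ, {p | ∀ k, N ≤ k → S k p ∈ U} := by
    rintro p ⟨hp, hA⟩
    obtain ⟨N, hN⟩ := eventually_atTop.1 ((hT p hp).eventually (hU.mem_nhds (hAU hA)))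
    exact mem_iUnion.2 ⟨N, hN⟩
  have h2 : Monotone fun N : ℕ => {p | ∀ k, N ≤ k → S k p ∈ U} :=
    fun a b hab p hp k hk => hp k (hab.trans hk)
  refine (measure_mono h1).trans ?_
  rw [h2.measure_iUnion]
  refine iSup_le fun N => ?_
  rw [← (hS N).measure_preimage hU.measurableSet.nullMeasurableSet]
  exact measure_mono fun p hp => hp N le_rfl

end Vale.Agent.P119
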