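import Vale.Agent.P119.Stm

open MeasureTheory Filter Topology Set
open scoped InnerProductSpace

namespace Vale.Agent.P119

theorem s_p (hpA : S_pA) (hpB : S_pB) (hg3 : S_g3) : S_p := by
  intro c a b ε K hP _ hK
  refine ⟨?_, fun n => ⟨?_, ?_, ?_⟩⟩
  · have e : excl ε 0 = univ := eq_univ_of_forall fun z i => i.elim0
    rw [pn, e, Measure.restrict_univ]
    exact ((hg3 c a b 0 hP).1 0).2.2.2.2
  · exact setIntegral_nonneg (meas_excl ε n) fun z _ => (tens_pos hP.1 a b 0 z).le
  · rw [(hpA c a b ε n hP).2]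
    refine setIntegral_mono_on (hpA c a b ε n hP).1
      ((hg3 c a b n hP).1 0).2.2.2.1.integrableOn (meas_excl ε n) fun z _ => ?_
    exact mul_le_of_le_one_left (tens_pos hP.1 a b 0 z).le (hpB c a b ε K n z hP hK).2
  · rw [(hpA c a b ε n hP).2, pn, mul_comm, ← integral_const_mul]
    refine setIntegral_mono_on (((hg3 c a b n hP).1 0).2.2.2.1.integrableOn.const_mul _)
      (hpA c a b ε n hP).1 (meas_excl ε n) fun z _ => ?_
    exact mul_le_mul_of_nonneg_right (hpB c a b ε K n z hP hK).1 (tens_pos hP.1 a b 0 z).le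

end Vale.Agent.P119
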