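import Vale.Agent.P119.Stm

/-! One more particle in the exclusion probability. -/

open MeasureTheory Filter Topology Set
open scoped InnerProductSpace

namespace Vale.Agent.P119

namespace PAAux

/-- admissible pairs of a particle and a configuration -/
def SS (ε : ℝ) (n : ℕ) : Set ((E3 × E3) × Cfg n) :=
  {p | p.2 ∈ excl ε n ∧ ∀ i, ε < ‖p.1.1 - (p.2 i).1‖}

theorem open_row (ε : ℝ) {n : ℕ} (z : Cfg n) :
    IsOpen {w : E3 × E3 | ∀ i, ε < ‖w.1 - (z i).1‖} := by
  simp only [ofPred_forall]
  exact isOpen_iInter_of_finite fun i => isOpen_lt continuous_const (by fun_prop)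

theorem open_SS (ε : ℝ) (n : ℕ) : IsOpen (SS ε n) := by
  refine ((isOpen_excl ε n).preimage continuous_snd).inter ?_
  show IsOpen {p : (E3 × E3) × Cfg n | ∀ i, ε < ‖p.1.1 - (p.2 i).1‖}
  simp only [ofPred_forall]
  exact isOpen_iInter_of_finite fun i => isOpen_lt continuous_const (by fun_prop)

theorem mem_succ (ε : ℝ) (n : ℕ) (z : Cfg (n + 1)) :
    z ∈ excl ε (n + 1) ↔ (z 0, fun j : Fin n => z j.succ) ∈ SS ε n := by
  refine ⟨fun h => ⟨fun i j k => h _ _ fun e => k (Fin.succ_injective _ e),
    fun i => h _ _ (Fin.succ_ne_zero i).symm⟩, fun h i j => ?_⟩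
  refine Fin.cases ?_ (fun i => ?_) i <;> refine Fin.cases ?_ (fun j => ?_) j
  · exact fun k => absurd rfl k
  · exact fun _ => h.2 j
  · intro _
    rw [norm_sub_rev]
    exact h.2 i
  · exact fun k => h.1 i j fun e => k (congrArg Fin.succ e)

theorem inner (f : E3 × E3 → ℝ) (ε : ℝ) {n : ℕ} (z : Cfg n) :
    ∫ w, (SS ε n).indicator (fun p => f p.1 * tens f p.2) (w, z) =
      (excl ε n).indicator
        (fun z => (∫ w in {w : E3 × E3 | ∀ i, ε < ‖w.1 - (z i).1‖}, f w) * tens f z) z := by
  by_cases h : z ∈ excl ε n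
  · rw [indicator_of_mem h, ← integral_mul_const, ← integral_indicator (open_row ε z).measurableSet]
    refine congrArg _ (funext fun w => ?_)
    by_cases k : ∀ i, ε < ‖w.1 - (z i).1‖
    · rw [indicator_of_mem (show (w, z) ∈ SS ε n from ⟨h, k⟩), indicator_of_mem (by exact k)]
    · rw [indicator_of_notMem (fun e : (w, z) ∈ SS ε n => k e.2), indicator_of_notMem (by exact k)]
  · rw [indicator_of_notMem h]
    refine (congrArg _ (funext fun w => ?_)).trans (integral_zero _ _)
    exact indicator_of_notMem (fun e : (w, z) ∈ SS ε n => h e.1) _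

end PAAux

theorem s_pA : S_pA := by
  intro c a b ε n hP
  have : SigmaFinite (volume : Measure (Cfg n)) := Measure.pi.sigmaFinite _
  have i1 : Integrable (gau c a b 0) :=
    Integrable.of_integral_ne_zero (by rw [hP.2.2.2]; exact one_ne_zero)
  have i2 : Integrable fun z : Cfg n => tens (gau c a b 0) z :=
    Integrable.fintype_prod (f := fun _ : Fin n => gau c a b 0) fun _ => i1
  have i3 : Integrable ((PAAux.SS ε n).indicator fun p => gau c a b 0 p.1 * tens (gau c a b 0) p.2)
      ((volume : Measure (E3 × E3)).prod (volume : Measure (Cfg n))) :=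
    (i1.mul_prod i2).indicator (PAAux.open_SS ε n).measurableSet
  constructor
  · have i4 := i3.integral_prod_right
    simp only [PAAux.inner] at i4
    exact (integrable_indicator_iff (meas_excl ε n)).1 i4
  · rw [pn, ← integral_indicator (meas_excl ε n), ← integral_indicator (meas_excl ε (n + 1))]
    simp only [← PAAux.inner]
    rw [← integral_prod_symm _ i3, ← Measure.volume_eq_prod,
      ← (volume_preserving_piFinSuccAbove (fun _ : Fin (n + 1) => E3 × E3) 0).integral_comp']
    refine congrArg _ (funext fun z => ?_)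
    show _ = (PAAux.SS ε n).indicator (fun p => gau c a b 0 p.1 * tens (gau c a b 0) p.2)
      (z 0, fun j : Fin n => z j.succ)
    by_cases h : z ∈ excl ε (n + 1)
    · rw [indicator_of_mem h, indicator_of_mem ((PAAux.mem_succ ε n z).1 h)]
      exact Fin.prod_univ_succ _
    · rw [indicator_of_notMem h, indicator_of_notMem (mt (PAAux.mem_succ ε n z).2 h)]

end Vale.Agent.P119
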