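import Vale.Agent.P119.Stm

/-! The pathwise inequality along a solution of the equations of Newton. -/

open MeasureTheory Filter Topology Set
open scoped InnerProductSpace

namespace Vale.Agent.P119

theorem s_path (hdU : S_dU) (hvir : S_vir) (hdQ : S_dQ) (hode : S_ode) : S_path := by
  intro Φ ε a b n γ hΦ hε ha hb hN h0
  obtain ⟨v1, v2, v3⟩ := hvir Φ ε n hΦ hε
  have hq := fun t => hdQ a b n γ (force Φ ε fun j => (γ t j).1) t (hN.2 t)
  refine ⟨continuous_iff_continuousAt.mpr fun t => (hq t).continuousAt, ?_⟩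
  exact hode a b (fun s => Qn a b s (γ s)) (fun s => Un Φ ε (γ s))
    (fun t => ∑ i, ⟪(γ t i).1, force Φ ε (fun j => (γ t j).1) i⟫_ℝ)
    (fun t => ∑ i, ⟪(γ t i).2, force Φ ε (fun j => (γ t j).1) i⟫_ℝ) ha hb hq
    (hdU Φ ε n γ hΦ hε hN) (fun t => v1 fun j => (γ t j).1) (fun t => (v3 γ hN t).1) (v2 _ h0)

end Vale.Agent.P119
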