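import Vale.Agent.P119.Stm

/-! Averaging over permutations. -/

namespace Vale.Agent.P119

open MeasureTheory Filter Topology Set
open scoped InnerProductSpace

namespace PermAux

variable {s n : ℕ}

theorem avg_eq (A : (Fin s ↪ Fin n) → ℝ) (e e' : Fin s ↪ Fin n) :
    ∑ σ : Equiv.Perm (Fin n), A (σ • e) = ∑ σ : Equiv.Perm (Fin n), A (σ • e') := by
  obtain ⟨τ, rfl⟩ := Equiv.Perm.exists_smul_eq_embedding e' e
  rw [← Equiv.sum_comp (Equiv.mulRight τ) fun σ : Equiv.Perm (Fin n) => A (σ • e')]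
  exact Finset.sum_congr rfl fun σ _ => by rw [Equiv.coe_mulRight, mul_smul]

theorem avg_sum (A : (Fin s ↪ Fin n) → ℝ) :
    ∑ e : Fin s ↪ Fin n, ∑ σ : Equiv.Perm (Fin n), A (σ • e) =
      (Fintype.card (Equiv.Perm (Fin n)) : ℝ) * ∑ e, A e := by
  rw [Finset.sum_comm, ← nsmul_eq_mul, ← Finset.card_univ, ← Finset.sum_const]
  exact Finset.sum_congr rfl fun σ _ => Equiv.sum_comp (MulAction.toPerm σ) A

end PermAux

theorem s_perm : S_perm := by
  intro m s n A B hm hn h
  obtain ⟨e0⟩ : Nonempty (Fin m × Fin s ↪ Fin n) :=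
    Function.Embedding.nonempty_of_card_le (by simpa using hn)
  have hc : (0 : ℝ) < Fintype.card (Equiv.Perm (Fin n)) := Nat.cast_pos.2 Fintype.card_pos
  have hm' : (0 : ℝ) < m := Nat.cast_pos.2 hm
  have h1 : ∀ e : Fin s ↪ Fin n, ∑ σ : Equiv.Perm (Fin n), A (σ • e) ≤
      (Fintype.card (Equiv.Perm (Fin n)) : ℝ) * B := by
    intro e
    refine le_of_mul_le_mul_left ?_ hm'
    calc (m : ℝ) * ∑ σ : Equiv.Perm (Fin n), A (σ • e)
        = ∑ j : Fin m, ∑ σ : Equiv.Perm (Fin n),
            A (σ • (Function.Embedding.sectR j (Fin s)).trans e0) := by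
          rw [Finset.sum_congr rfl fun j _ => PermAux.avg_eq A _ e]
          simp
      _ ≤ ∑ _σ : Equiv.Perm (Fin n), m * B := by
          rw [Finset.sum_comm]
          exact Finset.sum_le_sum fun σ _ => h (σ • e0)
      _ = _ := by
          rw [Finset.sum_const, Finset.card_univ, nsmul_eq_mul]
          ring
  refine le_of_mul_le_mul_left ?_ hc
  rw [← PermAux.avg_sum]
  refine (Finset.sum_le_sum fun e _ => h1 e).trans (le_of_eq ?_)
  rw [Finset.sum_const, Finset.card_univ, nsmul_eq_mul, Fintype.card_embedding_eq,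
    Fintype.card_fin, Fintype.card_fin]
  ring

end Vale.Agent.P119
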