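import Vale.Agent.P119.Stm

/-! The product of measures with a density has the tensor power as density. -/

open MeasureTheory Filter Topology Set
open scoped InnerProductSpace

namespace Vale.Agent.P119

namespace PiAux

theorem pi_eq (f : E3 × E3 → ℝ) (n : ℕ) (h0 : ∀ z, 0 ≤ f z) (hi : Integrable f) :
    (Measure.pi fun _ : Fin n =>
      (volume : Measure (E3 × E3)).withDensity fun w => ENNReal.ofReal (f w)) =
    (volume : Measure (Cfg n)).withDensity fun z => ENNReal.ofReal (tens f z) := by
  have := isFiniteMeasure_withDensity_ofReal hi.2
  refine Measure.pi_eq fun s hs => ?_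
  have h1 : Integrable (fun z : Cfg n => ∏ i, f (z i))
      (Measure.pi fun i => volume.restrict (s i)) :=
    Integrable.fintype_prod (f := fun _ => f) fun i => hi.restrict
  rw [withDensity_apply _ (MeasurableSet.univ_pi hs), volume_pi, Measure.restrict_pi_pi]
  unfold tens
  rw [← ofReal_integral_eq_lintegral_ofReal h1
    (Eventually.of_forall fun z => Finset.prod_nonneg fun i _ => h0 _),
    integral_fintype_prod_eq_prod (fun _ => f),
    ENNReal.ofReal_prod_of_nonneg fun i _ => integral_nonneg h0]
  refine Finset.prod_congr rfl fun i _ => ?_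
  rw [withDensity_apply _ (hs i),
    ofReal_integral_eq_lintegral_ofReal hi.restrict (Eventually.of_forall h0)]

end PiAux

theorem s_pi : S_pi := by
  intro f n g hf h0 hi
  have hm : Measurable fun z : Cfg n => tens f z :=
    Finset.measurable_prod _ fun i _ => hf.comp (measurable_pi_apply i)
  rw [PiAux.pi_eq f n h0 hi, integral_withDensity_eq_integral_toReal_smul hm.ennreal_ofReal
    (Eventually.of_forall fun _ => ENNReal.ofReal_lt_top)]
  refine integral_congr_ae (Eventually.of_forall fun z => ?_)
  have : 0 ≤ tens f z := Finset.prod_nonneg fun i _ => h0 _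
  simp only [ENNReal.toReal_ofReal this, smul_eq_mul, mul_comm]

end Vale.Agent.P119
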