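import Vale.Agent.P119.Stm

open MeasureTheory Filter Topology Set
open scoped InnerProductSpace

namespace Vale.Agent.P119

namespace PlowAux

theorem exp_le {x : ℝ} (h0 : 0 ≤ x) (h1 : x ≤ 1 / 2) : Real.exp (-(2 * x)) ≤ 1 - x := by
  have h2 : 2 * x + 1 ≤ Real.exp (2 * x) := Real.add_one_le_exp _
  have h3 : Real.exp (-(2 * x)) * Real.exp (2 * x) = 1 := by
    rw [← Real.exp_add]
    simp
  have h4 : 0 < Real.exp (2 * x) := Real.exp_pos _
  have h5 : 1 ≤ (1 - x) * Real.exp (2 * x) := by
    have h6 : (1 - x) * (2 * x + 1) ≤ (1 - x) * Real.exp (2 * x) :=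
      mul_le_mul_of_nonneg_left h2 (by linarith)
    nlinarith
  exact le_of_mul_le_mul_right (by rw [h3]; exact h5) h4

end PlowAux

theorem s_plow : S_plow := by
  intro p η n hη h0 hs hn
  have hnη : 0 ≤ (n : ℝ) * η := by positivity
  have key : ∀ k : ℕ, k ≤ n → Real.exp (-(2 * (n * η) * k)) ≤ p k := by
    intro k
    induction k with
    | zero =>
      intro _
      simp [h0]
    | succ k ih =>
      intro hk
      have h1 := ih (by omega)
      have h2 : (k : ℝ) * η ≤ n * η :=
        mul_le_mul_of_nonneg_right (by exact_mod_cast (by omega : k ≤ n)) hη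
      have h3 := PlowAux.exp_le hnη hn
      have h4 : Real.exp (-(2 * (n * η) * ((k + 1 : ℕ) : ℝ))) =
          Real.exp (-(2 * (n * η) * k)) * Real.exp (-(2 * (n * η))) := by
        rw [← Real.exp_add]
        congr 1
        push_cast
        ring
      rw [h4]
      refine le_trans ?_ (hs k)
      exact mul_le_mul h1 (by linarith) (Real.exp_pos _).le ((Real.exp_pos _).le.trans h1)
  have h5 := key n le_rfl
  have h6 : 0 < p n := (Real.exp_pos _).trans_le h5
  refine ⟨h6, ?_⟩
  have h7 := (Real.le_log_iff_exp_le h6).2 h5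
  nlinarith

end Vale.Agent.P119
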