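import Vale.Agent.P119.Stm

/-! Elementary properties of the potential. -/

open MeasureTheory Filter Topology Set
open scoped InnerProductSpace

namespace Vale.Agent.P119

namespace PotAux

theorem inner_grad (f : E3 → ℝ) (y v : E3) : ⟪v, gradient f y⟫_ℝ = fderiv ℝ f y v := by
  rw [real_inner_comm]
  exact InnerProductSpace.toDual_symm_apply

theorem diff {Φ : E3 → ℝ} (h : IsPot Φ) {y : E3} (hy : y ≠ 0) : DifferentiableAt ℝ Φ y :=
  (h.2.1.contDiffAt (isOpen_compl_singleton.mem_nhds hy)).differentiableAt (by norm_num)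

theorem nonneg {Φ : E3 → ℝ} (h : IsPot Φ) {y : E3} (hy : y ≠ 0) : 0 ≤ Φ y := by
  have hd : ∀ r : ℝ, 0 < r → HasDerivAt (fun r : ℝ => Φ (r • y)) (fderiv ℝ Φ (r • y) y) r :=
    fun r hr => by
      have := (diff h (smul_ne_zero hr.ne' hy)).hasFDerivAt.comp_hasDerivAt r
        ((hasDerivAt_id r).smul_const y)
      rw [one_smul] at this
      exact this
  have ha : AntitoneOn (fun r : ℝ => Φ (r • y)) (Ioi 0) := by
    refine antitoneOn_of_deriv_nonpos (convex_Ioi 0)
      (fun r hr => (hd r hr).continuousAt.continuousWithinAt)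
      (fun r hr => (hd r (interior_subset hr)).differentiableAt.differentiableWithinAt)
      fun r hr => ?_
    have r0 : 0 < r := interior_subset hr
    rw [(hd r r0).deriv]
    have := h.2.2.2.2 _ (smul_ne_zero r0.ne' hy)
    rw [inner_grad, map_smul, smul_eq_mul] at this
    exact nonpos_of_mul_nonpos_right this r0
  have n0 : 0 < ‖y‖ := norm_pos_iff.2 hy
  have h1 := ha (mem_Ioi.2 one_pos) (mem_Ioi.2 (lt_max_of_lt_left one_pos))
    (le_max_left 1 ‖y‖⁻¹)
  simp only [one_smul] at h1
  refine le_trans (h.2.2.1 _ ?_).ge h1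
  rw [norm_smul, Real.norm_eq_abs, abs_of_pos (lt_max_of_lt_left one_pos),
    ← inv_mul_cancel₀ n0.ne']
  exact mul_le_mul_of_nonneg_right (le_max_right _ _) n0.le

end PotAux

theorem s_pot : S_pot := by
  intro Φ h
  refine ⟨fun y hy => ?_, fun y => ?_, fun y => ?_⟩
  · by_cases e : y = 0
    · have hc : ContDiff ℝ 2 Φ := hy.resolve_right fun a => a e
      refine ⟨?_, hc.differentiable (by norm_num) y⟩
      subst e
      exact ge_of_tendsto (x := 𝓝[≠] (0 : E3))
        (hc.continuous.continuousAt.tendsto.mono_left nhdsWithin_le_nhds)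
        (eventually_nhdsWithin_of_forall fun z hz => PotAux.nonneg h hz)
    · exact ⟨PotAux.nonneg h e, PotAux.diff h e⟩
  · have e : Φ ∘ (ContinuousLinearEquiv.neg ℝ : E3 ≃L[ℝ] E3) = Φ :=
      funext fun z => h.1 _ _ (norm_neg z)
    have := (ContinuousLinearEquiv.neg ℝ : E3 ≃L[ℝ] E3).comp_right_fderiv (f := Φ) (x := y)
    rw [e] at this
    refine ext_inner_left ℝ fun v => ?_
    rw [inner_neg_right, PotAux.inner_grad, PotAux.inner_grad, this]
    simp
  · by_cases e : y = 0
    · rw [e, inner_zero_left]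
    · exact h.2.2.2.2 y e

end Vale.Agent.P119
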