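import Vale.Agent.P119.Stm2

/-! The bound for the collision operator near a Gaussian. -/

open MeasureTheory Filter Topology Set
open scoped InnerProductSpace

namespace Vale.Agent.P119

namespace QbdAux

theorem int_w {l : ℝ} (hl : 0 < l) :
    Integrable (fun w : E3 => (1 + ‖w‖) * Real.exp (-(l * ‖w‖ ^ 2))) := by
  have h1 : Integrable (fun w : E3 => Real.exp (-(l / 2) * ‖w‖ ^ 2)) := by
    refine Integrable.of_integral_ne_zero ?_
    rw [GaussianFourier.integral_rexp_neg_mul_sq_norm (half_pos hl)]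
    positivity
  refine (h1.const_mul (2 + 2 / l)).mono' (by fun_prop) (ae_of_all _ fun w => ?_)
  have r0 := norm_nonneg w
  generalize ‖w‖ = r at *
  have e1 : 1 + l / 2 * r ^ 2 ≤ Real.exp (l / 2 * r ^ 2) := by
    linarith [Real.add_one_le_exp (l / 2 * r ^ 2)]
  have e2 : 1 + r ≤ (2 + 2 / l) * (1 + l / 2 * r ^ 2) := by
    have k : (2 + 2 / l) * (1 + l / 2 * r ^ 2) = 2 + 2 / l + l * r ^ 2 + r ^ 2 := by
      field_simp
      ring
    have : 0 < 2 / l := by positivity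
    rw [k]
    nlinarith [sq_nonneg (r - 1), mul_nonneg hl.le (sq_nonneg r)]
  have e3 : Real.exp (-(l / 2) * r ^ 2) = Real.exp (l / 2 * r ^ 2) * Real.exp (-(l * r ^ 2)) := by
    rw [← Real.exp_add]
    congr 1
    ring
  rw [Real.norm_of_nonneg (by positivity), e3, ← mul_assoc]
  exact mul_le_mul_of_nonneg_right
    (e2.trans (mul_le_mul_of_nonneg_left e1 (by positivity))) (Real.exp_pos _).le

theorem two {f1 f2 g1 g2 M N e1 e2 : ℝ} (a2 : |f2| ≤ M * e2) (b1 : |g1| ≤ M * e1)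
    (c1 : |f1 - g1| ≤ N * e1) (c2 : |f2 - g2| ≤ N * e2) :
    |f1 * f2 - g1 * g2| ≤ 2 * (M * N * (e1 * e2)) := by
  have k1 := mul_le_mul c1 a2 (abs_nonneg _) ((abs_nonneg _).trans c1)
  have k2 := mul_le_mul b1 c2 (abs_nonneg _) ((abs_nonneg _).trans b1)
  rw [show f1 * f2 - g1 * g2 = (f1 - g1) * f2 + g1 * (f2 - g2) by ring]
  refine (abs_add_le _ _).trans ?_
  rw [abs_mul, abs_mul]
  linarith

end QbdAux

open QbdAux

theorem s_Qbd (hbal : S_bal) (hdisc : S_disc) : S_Qbd := by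
  intro l₀ h0
  refine ⟨16 * ∫ w : E3, (1 + ‖w‖) * Real.exp (-(l₀ * ‖w‖ ^ 2)),
    mul_nonneg (by norm_num) (integral_nonneg fun w => by positivity), ?_⟩
  intro S f c a b t l M N x v hS hl hM hN hf hg hd
  have key : ∀ w : E3, ‖∫ ρ in {ρ : (Submodule.span ℝ {v - w})ᗮ | ‖ρ‖ < 1},
      ‖v - w‖ * (f (x, (1 / 2 : ℝ) • (v + w + S (v - w) ρ)) *
        f (x, (1 / 2 : ℝ) • (v + w - S (v - w) ρ)) - f (x, v) * f (x, w))‖ ≤
      16 * (M * N * (1 + ‖v‖) * Real.exp (-(l * ‖v‖ ^ 2))) *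
        ((1 + ‖w‖) * Real.exp (-(l₀ * ‖w‖ ^ 2))) := fun w => by
    by_cases hw : v - w = 0
    · have : ‖v - w‖ = 0 := norm_eq_zero.2 hw
      simp only [this, zero_mul, integral_zero, norm_zero]
      positivity
    refine (hdisc (v - w) _ (‖v - w‖ * (4 * (M * N *
      (Real.exp (-(l * ‖v‖ ^ 2)) * Real.exp (-(l * ‖w‖ ^ 2)))))) hw (by positivity) ?_).trans ?_
    · filter_upwards [hS (v - w) hw] with ρ hρ h1
      obtain ⟨e1, e2⟩ := hbal v w (S (v - w) ρ) (hρ h1)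
      have k1 := two (hf ((1 / 2 : ℝ) • (v + w - S (v - w) ρ)))
        (hg ((1 / 2 : ℝ) • (v + w + S (v - w) ρ))) (hd _) (hd _)
      have k2 := two (hf w) (hg v) (hd v) (hd w)
      have e3 : Real.exp (-(l * ‖(1 / 2 : ℝ) • (v + w + S (v - w) ρ)‖ ^ 2)) *
          Real.exp (-(l * ‖(1 / 2 : ℝ) • (v + w - S (v - w) ρ)‖ ^ 2)) =
          Real.exp (-(l * ‖v‖ ^ 2)) * Real.exp (-(l * ‖w‖ ^ 2)) := by
        rw [← Real.exp_add, ← Real.exp_add]
        congr 1
        linear_combination (-l) * e1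
      rw [e2, e3] at k1
      rw [abs_mul, abs_norm]
      refine mul_le_mul_of_nonneg_left ?_ (norm_nonneg _)
      have k3 := abs_le.1 k1
      have k4 := abs_le.1 k2
      exact abs_le.2 ⟨by linarith [k3.1, k4.2], by linarith [k3.2, k4.1]⟩
    · have n1 : ‖v - w‖ ≤ (1 + ‖v‖) * (1 + ‖w‖) := by
        nlinarith [norm_sub_le v w, mul_nonneg (norm_nonneg v) (norm_nonneg w)]
      have n2 : Real.exp (-(l * ‖w‖ ^ 2)) ≤ Real.exp (-(l₀ * ‖w‖ ^ 2)) :=
        Real.exp_le_exp.2 (neg_le_neg (mul_le_mul_of_nonneg_right hl (sq_nonneg _)))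
      have n3 := mul_le_mul n1 n2 (Real.exp_pos _).le (by positivity)
      have n4 : 0 ≤ 16 * (M * N * Real.exp (-(l * ‖v‖ ^ 2))) := by positivity
      linarith [mul_le_mul_of_nonneg_left n3 n4]
  refine (norm_integral_le_of_norm_le ((int_w h0).const_mul _) (ae_of_all _ key)).trans_eq ?_
  rw [integral_const_mul]
  ring

end Vale.Agent.P119
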