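import Vale.Agent.P119.Stm2

open MeasureTheory Filter Topology Set
open scoped InnerProductSpace

namespace Vale.Agent.P119

namespace RegAux

theorem gau_le {c a b : ℝ} (hc : 0 < c) (ha : 0 < a) (t : ℝ) (x u : E3) :
    gau c a b t (x, u) ≤ c * Real.exp (-(b * ‖u‖ ^ 2)) := by
  refine mul_le_mul_of_nonneg_left (Real.exp_le_exp.2 ?_) hc.le
  have : 0 ≤ a * ‖x - t • u‖ ^ 2 := by positivity
  linarith

end RegAux

open RegAux in
theorem s_reg (hg1 : S_g1) (hQbd : S_Qbd) : S_reg := by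
  intro S β c a b T hS hβ hP
  obtain ⟨hc, ha, hb, -⟩ := id hP
  refine ⟨rfl, fun t _ => ⟨fun z => (gau_pos hc a b t z).le, ((hg1 c a b hP).1 t).2⟩,
    fun t _ x v => ?_, c, fun t _ x v => ?_⟩
  · obtain ⟨C, -, h⟩ := hQbd b hb
    have hle : ∀ u, |gau c a b t (x + t • v, u)| ≤ c * Real.exp (-(b * ‖u‖ ^ 2)) := fun u => by
      rw [abs_of_pos (gau_pos hc a b t _)]
      exact gau_le hc ha t _ u
    have h0 := h S (gau c a b t) c a b t b c 0 (x + t • v) v hS le_rfl hc.le le_rfl hle hle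
      fun u => by simp
    simp only [mul_zero, zero_mul, abs_nonpos_iff] at h0
    rw [h0]
    have e : (fun r : ℝ => gau c a b r (x + r • v, v)) =
        fun _ => c * Real.exp (-(a * ‖x‖ ^ 2 + b * ‖v‖ ^ 2)) := by
      funext r
      simp only [gau, add_sub_cancel_right]
    rw [e]
    exact hasDerivWithinAt_const _ _ _
  · calc _ ≤ Real.exp (2 * β * ‖v‖ ^ 2) * (c * Real.exp (-(b * ‖v‖ ^ 2))) :=
          mul_le_mul_of_nonneg_left (gau_le hc ha t x v) (Real.exp_pos _).le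
      _ = c * Real.exp (2 * β * ‖v‖ ^ 2 + -(b * ‖v‖ ^ 2)) := by rw [Real.exp_add]; ring
      _ ≤ c := by
          refine mul_le_of_le_one_right hc.le (Real.exp_le_one_iff.2 ?_)
          have := mul_le_mul_of_nonneg_right hβ (sq_nonneg ‖v‖)
          linarith

end Vale.Agent.P119
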