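import Vale.Agent.P119.Stm2

/-! The scattering is elastic. -/

open MeasureTheory Filter Topology Set
open scoped InnerProductSpace

namespace Vale.Agent.P119

theorem s_scat (hpot : S_pot) : S_scat := by
  intro Φ V ρ V' hΦ hV ⟨r, r', h0, hd, hb, ht⟩
  have he : ∀ t, HasDerivAt (fun s => ‖r' s‖ ^ 2 + 4 * Φ (r s)) 0 t := fun t => by
    have d := ((hpot Φ hΦ).1 (r t) (h0.imp_right fun h => h t)).2
    refine ((hd t).2.norm_sq.fun_add
      ((d.hasGradientAt.hasFDerivAt.comp_hasDerivAt t (hd t).1).const_mul 4)).congr_deriv ?_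
    rw [InnerProductSpace.toDual_apply_apply, inner_neg_right, inner_smul_right,
      real_inner_comm (r' t)]
    ring
  obtain ⟨t0, h1⟩ := eventually_atBot.1 hb
  obtain ⟨t1, h2, h3⟩ := ht.exists
  have v0 : 0 < ‖V‖ := norm_pos_iff.2 hV
  obtain ⟨t, a1, a2⟩ : ∃ t : ℝ, t < t0 ∧ t ≤ -((1 + ‖ρ‖) / ‖V‖) :=
    ⟨min (t0 - 1) _, (min_le_left _ _).trans_lt (sub_one_lt _), min_le_right _ _⟩
  have b1 : 1 ≤ ‖r t‖ := by
    have c1 := norm_sub_le (ρ + t • V) ρ
    rw [add_sub_cancel_left, norm_smul, Real.norm_eq_abs] at c1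
    have c2 : (1 + ‖ρ‖) / ‖V‖ ≤ |t| := (le_neg.1 a2).trans (neg_le_abs t)
    rw [div_le_iff₀ v0] at c2
    rw [h1 t a1.le]
    linarith
  have b2 : r' t = V := by
    have c1 : HasDerivAt (fun s : ℝ => ρ + s • V) V t := by
      simpa using ((hasDerivAt_id t).smul_const V).const_add ρ
    exact (hd t).1.unique (c1.congr_of_eventuallyEq
      (Filter.mem_of_superset (Iio_mem_nhds a1) fun s hs => h1 s (le_of_lt hs)))
  have e := is_const_of_deriv_eq_zero (fun s => (he s).differentiableAt)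
    (fun s => (he s).deriv) t1 t
  simp only [h3, b2, hΦ.2.2.1 _ h2, hΦ.2.2.1 _ b1, add_left_inj] at e
  exact (sq_eq_sq₀ (norm_nonneg _) (norm_nonneg _)).1 e

end Vale.Agent.P119
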