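import Vale.Agent.P119.Stm

/-! The symplectic Euler step preserves the volume. -/

open MeasureTheory Filter Topology Set
open scoped InnerProductSpace

namespace Vale.Agent.P119

theorem s_shear : S_shear := by
  intro Y _ _ _ _ _ μ _ F h hF
  have k : ∀ G : Y → Y, Continuous G → MeasurePreserving (fun p : Y × Y => (p.1, p.2 + h • G p.1))
      (μ.prod μ) (μ.prod μ) := fun G hG =>
    (MeasurePreserving.id μ).skew_product (g := fun a b => b + h • G a)
      (continuous_snd.add ((hG.comp continuous_fst).const_smul h)).measurable
      (Eventually.of_forall fun a => map_add_right_eq_self μ _)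
  exact (k F hF).comp (Measure.measurePreserving_swap.comp
    ((k id continuous_id).comp Measure.measurePreserving_swap))

end Vale.Agent.P119
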