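import Vale.Agent.P119.Stm

/-! Index shift in grand canonical sums. -/

open MeasureTheory Filter Topology Set
open scoped InnerProductSpace

namespace Vale.Agent.P119

namespace ShiftAux

theorem lin (m s : ℕ) : ((m + s : ℕ) : ℝ) + 1 ≤ (s + 1) * 2 ^ m := by
  have h : (m : ℝ) + 1 ≤ 2 ^ m := by exact_mod_cast Nat.lt_two_pow_self
  have h0 : (0 : ℝ) ≤ m := Nat.cast_nonneg m
  have h1 : (0 : ℝ) ≤ s := Nat.cast_nonneg s
  push_cast
  nlinarith [mul_nonneg h0 h1]

theorem term (μ x : ℝ) (m s : ℕ) :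
    μ ^ (m + s) / ((m + s).factorial : ℝ) * (((m + s).descFactorial s : ℝ) * x) =
      μ ^ s * (μ ^ m / (m.factorial : ℝ) * x) := by
  have h := Nat.factorial_mul_descFactorial (Nat.le_add_left s m)
  rw [Nat.add_sub_cancel] at h
  have h1 : ((m + s).factorial : ℝ) = m.factorial * (m + s).descFactorial s := by
    exact_mod_cast h.symm
  have h2 : (m.factorial : ℝ) ≠ 0 := by positivity
  have h3 : ((m + s).descFactorial s : ℝ) ≠ 0 := by
    intro e
    rw [e, mul_zero] at h1
    exact absurd h1 (by positivity)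
  rw [h1, pow_add]
  field_simp

end ShiftAux

open ShiftAux in
theorem s_shift : S_shift := by
  intro μ A s g hμ hg
  have hA : 0 ≤ A := by simpa using (abs_nonneg _).trans (hg 0)
  have h2 : Summable fun m : ℕ => μ ^ m / (m.factorial : ℝ) * g (m + s) := by
    refine Summable.of_norm_bounded
      ((Real.summable_pow_div_factorial (2 * μ)).mul_left (A * (s + 1))) fun m => ?_
    have hp : 0 ≤ μ ^ m / (m.factorial : ℝ) := by positivity
    rw [Real.norm_eq_abs, abs_mul, abs_of_nonneg hp]
    calc μ ^ m / (m.factorial : ℝ) * |g (m + s)|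
        ≤ μ ^ m / (m.factorial : ℝ) * (A * ((s + 1) * 2 ^ m)) :=
          mul_le_mul_of_nonneg_left ((hg _).trans (mul_le_mul_of_nonneg_left (lin m s) hA)) hp
      _ = A * (s + 1) * ((2 * μ) ^ m / (m.factorial : ℝ)) := by rw [mul_pow]; ring
  have h3 : Summable fun m : ℕ =>
      μ ^ (m + s) / ((m + s).factorial : ℝ) * (((m + s).descFactorial s : ℝ) * g (m + s)) := by
    simp only [term]
    exact h2.mul_left _
  have h1 : Summable fun n : ℕ => μ ^ n / (n.factorial : ℝ) * ((n.descFactorial s : ℝ) * g n) :=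
    (summable_nat_add_iff s).1 h3
  refine ⟨h1, h2, ?_⟩
  rw [← h1.sum_add_tsum_nat_add s, Finset.sum_eq_zero, zero_add]
  · simp only [term]
    exact tsum_mul_left
  · intro i hi
    rw [Nat.descFactorial_eq_zero_iff_lt.2 (Finset.mem_range.1 hi)]
    simp

end Vale.Agent.P119
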