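import Vale.Agent.P119.Stm

namespace Vale.Agent.P119

open MeasureTheory Filter Topology Set
open scoped InnerProductSpace

theorem s_slip : S_slip := by
  intro Y _ _ F L h p q hF hh
  have hd : 0 ≤ dist p q := dist_nonneg
  have hL : (0 : ℝ) ≤ L := L.2
  have h1 : dist p.1 q.1 ≤ dist p q := by rw [Prod.dist_eq]; exact le_max_left _ _
  have h2 : dist p.2 q.2 ≤ dist p q := by rw [Prod.dist_eq]; exact le_max_right _ _
  have hs : ∀ a b : Y, dist (h • a) (h • b) = h * dist a b := fun a b => by
    rw [dist_smul₀, Real.norm_of_nonneg hh]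
  have h3 : dist (p.1 + h • p.2) (q.1 + h • q.2) ≤ (1 + h) * dist p q := by
    refine (dist_add_add_le _ _ _ _).trans ?_
    rw [hs]
    linarith [mul_le_mul_of_nonneg_left h2 hh]
  have h4 : dist (p.2 + h • F (p.1 + h • p.2)) (q.2 + h • F (q.1 + h • q.2)) ≤
      dist p q + h * (L * ((1 + h) * dist p q)) := by
    refine (dist_add_add_le _ _ _ _).trans (add_le_add h2 ?_)
    rw [hs]
    exact mul_le_mul_of_nonneg_left ((hF.dist_le_mul _ _).trans
      (mul_le_mul_of_nonneg_left h3 hL)) hh
  have h5 : (1 + h) * (1 + L * h) ≤ Real.exp ((1 + L) * h) := by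
    rw [add_mul 1 (L : ℝ) h, one_mul, Real.exp_add]
    exact mul_le_mul (by linarith [Real.add_one_le_exp h]) (by linarith [Real.add_one_le_exp (L * h)])
      (by positivity) (Real.exp_pos _).le
  refine le_trans ?_ (mul_le_mul_of_nonneg_right h5 hd)
  have h6 : 0 ≤ h * dist p q := mul_nonneg hh hd
  have h7 : 0 ≤ h * (L * ((1 + h) * dist p q)) := by positivity
  rw [Prod.dist_eq]
  exact max_le (h3.trans (by nlinarith)) (h4.trans (by nlinarith))

end Vale.Agent.P119
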