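import Vale.Agent.P119.Defs

/-! Statements of the steps. Each one is proved in its own file. -/

open MeasureTheory Filter Topology Set
open scoped InnerProductSpace

namespace Vale.Agent.P119

/-- The exponent of the tensor power of the Gaussian. -/
noncomputable def Qn (a b t : ℝ) {n : ℕ} (z : Cfg n) : ℝ :=
  ∑ i, (a * ‖(z i).1 - t • (z i).2‖ ^ 2 + b * ‖(z i).2‖ ^ 2)

/-- Potential energy. -/
noncomputable def Un (Φ : E3 → ℝ) (ε : ℝ) {n : ℕ} (z : Cfg n) : ℝ :=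
  (1 / 2) * ∑ i, ∑ j ∈ Finset.univ.erase i, Φ (ε⁻¹ • ((z i).1 - (z j).1))

/-- One step of the splitting scheme. -/
def step {Y : Type} [NormedAddCommGroup Y] [NormedSpace ℝ Y] (F : Y → Y) (h : ℝ) (p : Y × Y) :
    Y × Y := (p.1 + h • p.2, p.2 + h • F (p.1 + h • p.2))

/-- Parameters of a Gaussian probability density. -/
def Par (c a b : ℝ) : Prop := 0 < c ∧ 0 < a ∧ 0 < b ∧ ∫ z, gau c a b 0 z = 1

/-- Exclusion probability. -/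
noncomputable def pn (c a b ε : ℝ) (n : ℕ) : ℝ := ∫ z in excl ε n, tens (gau c a b 0) z

theorem isOpen_excl (ε : ℝ) (n : ℕ) : IsOpen (excl ε n) := by
  unfold excl
  simp only [setOf_forall]
  refine isOpen_iInter_of_finite fun i => isOpen_iInter_of_finite fun j =>
    isOpen_iInter_of_finite fun _ => isOpen_lt continuous_const (by fun_prop)

theorem meas_excl (ε : ℝ) (n : ℕ) : MeasurableSet (excl ε n) := (isOpen_excl ε n).measurableSet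

theorem cont_gau (c a b t : ℝ) : Continuous (gau c a b t) := by
  unfold gau
  fun_prop

theorem gau_pos {c : ℝ} (hc : 0 < c) (a b t : ℝ) (z : E3 × E3) : 0 < gau c a b t z :=
  mul_pos hc (Real.exp_pos _)

theorem cont_tens (c a b t : ℝ) (n : ℕ) :
    Continuous (fun z : Cfg n => tens (gau c a b t) z) :=
  continuous_finset_prod _ fun i _ => (cont_gau c a b t).comp (continuous_apply i)

theorem tens_pos {c : ℝ} (hc : 0 < c) (a b t : ℝ) {n : ℕ} (z : Cfg n) :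
    0 < tens (gau c a b t) z := Finset.prod_pos fun i _ => gau_pos hc a b t (z i)

/-! ### Mechanics -/

def S_pot : Prop := ∀ Φ : E3 → ℝ, IsPot Φ →
  (∀ y, (ContDiff ℝ 2 Φ ∨ y ≠ 0) → 0 ≤ Φ y ∧ DifferentiableAt ℝ Φ y) ∧
    (∀ y, gradient Φ (-y) = -gradient Φ y) ∧ ∀ y, ⟪y, gradient Φ y⟫_ℝ ≤ 0

def S_dU : Prop := ∀ (Φ : E3 → ℝ) (ε : ℝ) (n : ℕ) (γ : ℝ → Cfg n), IsPot Φ → 0 < ε →
  Newton Φ ε γ → ∀ t, HasDerivAt (fun s => Un Φ ε (γ s))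
    (-∑ i, ⟪(γ t i).2, force Φ ε (fun j => (γ t j).1) i⟫_ℝ) t

def S_vir : Prop := ∀ (Φ : E3 → ℝ) (ε : ℝ) (n : ℕ), IsPot Φ → 0 < ε →
  (∀ x : Fin n → E3, 0 ≤ ∑ i, ⟪x i, force Φ ε x i⟫_ℝ) ∧ (∀ z ∈ excl ε n, Un Φ ε z = 0) ∧
    ∀ γ : ℝ → Cfg n, Newton Φ ε γ → ∀ t, 0 ≤ Un Φ ε (γ t) ∧
      ∀ i j, i ≠ j → Φ (ε⁻¹ • ((γ t i).1 - (γ t j).1)) ≤ 2 * Un Φ ε (γ t)

def S_dQ : Prop := ∀ (a b : ℝ) (n : ℕ) (γ : ℝ → Cfg n) (F : Fin n → E3) (t : ℝ),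
  (∀ i, HasDerivAt (fun s => (γ s i).1) (γ t i).2 t ∧ HasDerivAt (fun s => (γ s i).2) (F i) t) →
  HasDerivAt (fun s => Qn a b s (γ s))
    (-(2 * a * t) * ∑ i, ⟪(γ t i).1, F i⟫_ℝ + 2 * (b + a * t ^ 2) * ∑ i, ⟪(γ t i).2, F i⟫_ℝ) t

def S_ode : Prop := ∀ (a b : ℝ) (q u W P : ℝ → ℝ), 0 < a → 0 < b →
  (∀ t, HasDerivAt q (-(2 * a * t) * W t + 2 * (b + a * t ^ 2) * P t) t) →
  (∀ t, HasDerivAt u (-P t) t) → (∀ t, 0 ≤ W t) → (∀ t, 0 ≤ u t) → u 0 = 0 →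
  ∀ t, 0 ≤ t → q t / (b + a * t ^ 2) +
    ∫ s in (0 : ℝ)..t, 2 * a * s / (b + a * s ^ 2) ^ 2 * q s ≤ q 0 / b

def S_path : Prop := ∀ (Φ : E3 → ℝ) (ε a b : ℝ) (n : ℕ) (γ : ℝ → Cfg n), IsPot Φ → 0 < ε →
  0 < a → 0 < b → Newton Φ ε γ → γ 0 ∈ excl ε n →
  Continuous (fun s => Qn a b s (γ s)) ∧ ∀ t, 0 ≤ t → Qn a b t (γ t) / (b + a * t ^ 2) +
    ∫ s in (0 : ℝ)..t, 2 * a * s / (b + a * s ^ 2) ^ 2 * Qn a b s (γ s) ≤ Qn a b 0 (γ 0) / b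

def S_en : Prop := ∀ (Φ : E3 → ℝ) (ε : ℝ) (n : ℕ) (γ : ℝ → Cfg n), IsPot Φ → 0 < ε →
  Newton Φ ε γ → γ 0 ∈ excl ε n → ∀ t i j, i ≠ j →
    Φ (ε⁻¹ • ((γ t i).1 - (γ t j).1)) ≤ ∑ k, ‖(γ 0 k).2‖ ^ 2

/-! ### Liouville -/

def S_shear : Prop := ∀ (Y : Type) [NormedAddCommGroup Y] [NormedSpace ℝ Y]
  [FiniteDimensional ℝ Y] [MeasurableSpace Y] [BorelSpace Y] (μ : Measure Y)
  [μ.IsAddHaarMeasure] (F : Y → Y) (h : ℝ), Continuous F →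
  MeasurePreserving (step F h) (μ.prod μ) (μ.prod μ)

def S_loc : Prop := ∀ (Y : Type) [NormedAddCommGroup Y] [NormedSpace ℝ Y] (F : Y → Y) (L : NNReal)
  (x v : ℝ → Y) (T : ℝ), LipschitzWith L F → (∀ t, HasDerivAt x (v t) t) →
  (∀ t, HasDerivAt v (F (x t)) t) → ∃ C : ℝ, 0 ≤ C ∧ ∀ s h : ℝ, 0 ≤ s → 0 ≤ h → s + h ≤ T →
    dist (step F h (x s, v s)) (x (s + h), v (s + h)) ≤ C * h ^ 2

def S_slip : Prop := ∀ (Y : Type) [NormedAddCommGroup Y] [NormedSpace ℝ Y] (F : Y → Y) (L : NNReal)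
  (h : ℝ) (p q : Y × Y), LipschitzWith L F → 0 ≤ h →
    dist (step F h p) (step F h q) ≤ Real.exp ((1 + L) * h) * dist p q

def S_conv : Prop := ∀ (Y : Type) [NormedAddCommGroup Y] [NormedSpace ℝ Y] (F : Y → Y) (L : NNReal)
  (x v : ℝ → Y) (t : ℝ), LipschitzWith L F → (∀ t, HasDerivAt x (v t) t) →
  (∀ t, HasDerivAt v (F (x t)) t) → 0 ≤ t →
    Tendsto (fun k : ℕ => (step F (t / (k + 1)))^[k + 1] (x 0, v 0)) atTop (𝓝 (x t, v t))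

def S_mlim : Prop := ∀ (Ω : Type) [TopologicalSpace Ω] [MeasurableSpace Ω] [BorelSpace Ω]
  (μ : Measure Ω) [μ.OuterRegular] (S : ℕ → Ω → Ω) (G : Set Ω) (T : Ω → Ω),
  (∀ k, MeasurePreserving (S k) μ μ) → (∀ p ∈ G, Tendsto (fun k => S k p) atTop (𝓝 (T p))) →
  ∀ A, μ (G ∩ T ⁻¹' A) ≤ μ A

def S_liouCfg : Prop := ∀ (n : ℕ) (F : (Fin n → E3) → Fin n → E3) (L : NNReal) (G : Set (Cfg n))
  (Fl : ℝ → Cfg n → Cfg n) (t : ℝ), LipschitzWith L F → 0 ≤ t →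
  (∀ z ∈ G, Fl 0 z = z ∧ ∀ r i, HasDerivAt (fun s => (Fl s z i).1) (Fl r z i).2 r ∧
    HasDerivAt (fun s => (Fl s z i).2) (F (fun j => (Fl r z j).1) i) r) →
  ∀ A, volume (G ∩ Fl t ⁻¹' A) ≤ volume A

def S_lip : Prop := ∀ (Ψ : E3 → ℝ) (ε : ℝ) (n : ℕ), ContDiff ℝ 2 Ψ → (∀ x, 1 ≤ ‖x‖ → Ψ x = 0) →
  ∃ L : NNReal, LipschitzWith L (fun x : Fin n → E3 => force Ψ ε x)

def S_cut : Prop := ∀ (Φ : E3 → ℝ) (δ : ℝ), 0 < δ → ContDiffOn ℝ 2 Φ {0}ᶜ →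
  (∀ x, 1 ≤ ‖x‖ → Φ x = 0) → ∃ Ψ : E3 → ℝ, ContDiff ℝ 2 Ψ ∧ (∀ x, 1 ≤ ‖x‖ → Ψ x = 0) ∧
    ∀ y, δ ≤ ‖y‖ → gradient Ψ y = gradient Φ y

def S_liou : Prop := ∀ (Φ : E3 → ℝ) (ε : ℝ) (n : ℕ) (Fl : ℝ → Cfg n → Cfg n) (t : ℝ), IsPot Φ →
  0 < ε → IsFlow Φ ε Fl → 0 ≤ t → ∀ A, volume (excl ε n ∩ Fl t ⁻¹' A) ≤ volume A

/-! ### Gaussians -/

def S_g1 : Prop := ∀ c a b : ℝ, Par c a b →
  (∀ t, Integrable (gau c a b t) ∧ ∫ z, gau c a b t z = 1) ∧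
    Integrable (fun z : E3 × E3 => (a * ‖z.1‖ ^ 2 + b * ‖z.2‖ ^ 2) * gau c a b 0 z)

def S_g2 : Prop := ∀ c a b : ℝ, Par c a b → ∃ K : ℝ, 0 < K ∧ ∀ (y : E3) (ε : ℝ), 0 < ε →
  ∫ z in {z : E3 × E3 | ‖z.1 - y‖ ≤ ε}, gau c a b 0 z ≤ K * ε ^ 3

def S_g3 : Prop := ∀ (c a b : ℝ) (n : ℕ), Par c a b →
  (∀ t, Measurable (fun z : Cfg n => Qn a b t z) ∧ (∀ z : Cfg n, 0 ≤ Qn a b t z) ∧
    (∀ z : Cfg n, tens (gau c a b t) z = c ^ n * Real.exp (-Qn a b t z)) ∧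
    Integrable (fun z : Cfg n => tens (gau c a b t) z) ∧
    ∫ z : Cfg n, tens (gau c a b t) z = 1) ∧
  Integrable (fun z : Cfg n => Qn a b 0 z * tens (gau c a b 0) z) ∧
  ∀ ε, MeasurableSet (excl ε n)

def S_pi : Prop := ∀ (f : E3 × E3 → ℝ) (n : ℕ) (g : Cfg n → ℝ), Measurable f → (∀ z, 0 ≤ f z) →
  Integrable f → ∫ z, g z ∂(Measure.pi fun _ : Fin n =>
    (volume : Measure (E3 × E3)).withDensity fun w => ENNReal.ofReal (f w)) =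
    ∫ z, g z * tens f z

def S_pA : Prop := ∀ (c a b ε : ℝ) (n : ℕ), Par c a b →
  IntegrableOn (fun z : Cfg n => (∫ w in {w : E3 × E3 | ∀ i, ε < ‖w.1 - (z i).1‖},
    gau c a b 0 w) * tens (gau c a b 0) z) (excl ε n) ∧
  pn c a b ε (n + 1) = ∫ z in excl ε n, (∫ w in {w : E3 × E3 | ∀ i, ε < ‖w.1 - (z i).1‖},
    gau c a b 0 w) * tens (gau c a b 0) z

def S_pB : Prop := ∀ (c a b ε K : ℝ) (n : ℕ) (z : Cfg n), Par c a b →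
  (∀ y : E3, ∫ z in {z : E3 × E3 | ‖z.1 - y‖ ≤ ε}, gau c a b 0 z ≤ K) →
  1 - n * K ≤ ∫ w in {w : E3 × E3 | ∀ i, ε < ‖w.1 - (z i).1‖}, gau c a b 0 w ∧
    ∫ w in {w : E3 × E3 | ∀ i, ε < ‖w.1 - (z i).1‖}, gau c a b 0 w ≤ 1

def S_p : Prop := ∀ (c a b ε K : ℝ), Par c a b → 0 < ε →
  (∀ y : E3, ∫ z in {z : E3 × E3 | ‖z.1 - y‖ ≤ ε}, gau c a b 0 z ≤ K) →
  pn c a b ε 0 = 1 ∧ ∀ n : ℕ, 0 ≤ pn c a b ε n ∧ pn c a b ε (n + 1) ≤ pn c a b ε n ∧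
    pn c a b ε n * (1 - n * K) ≤ pn c a b ε (n + 1)

def S_plow : Prop := ∀ (p : ℕ → ℝ) (η : ℝ) (n : ℕ), 0 ≤ η → p 0 = 1 →
  (∀ k : ℕ, p k * (1 - k * η) ≤ p (k + 1)) → n * η ≤ 1 / 2 →
  0 < p n ∧ -Real.log (p n) ≤ 2 * (n : ℝ) ^ 2 * η

/-! ### Entropy -/

def S_ent : Prop := ∀ (Ω : Type) [MeasurableSpace Ω] (μ : Measure Ω) (D : Set Ω) (T : Ω → Ω)
  (q₀ q X : Ω → ℝ) (c Λ : ℝ), MeasurableSet D → Measurable T → Measurable q → Measurable X →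
  0 < c → (∀ A, μ (D ∩ T ⁻¹' A) ≤ μ A) →
  IntegrableOn (fun z => c * Real.exp (-q₀ z)) D μ →
  IntegrableOn (fun z => (X (T z) - q (T z) + q₀ z) * (c * Real.exp (-q₀ z))) D μ →
  Integrable (fun z => Real.exp (X z) * (c * Real.exp (-q z))) μ →
  ∫ z, Real.exp (X z) * (c * Real.exp (-q z)) ∂μ ≤ Real.exp Λ →
  0 < ∫ z in D, c * Real.exp (-q₀ z) ∂μ →
  ∫ z in D, (X (T z) - q (T z) + q₀ z) * (c * Real.exp (-q₀ z)) ∂μ ≤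
    (∫ z in D, c * Real.exp (-q₀ z) ∂μ) * (Λ - Real.log (∫ z in D, c * Real.exp (-q₀ z) ∂μ))

def S_swap : Prop := ∀ (Ω : Type) [MeasurableSpace Ω] (m : Measure Ω) [SFinite m]
  (G : ℝ → Ω → ℝ) (B : Ω → ℝ) (t : ℝ), 0 ≤ t → (∀ s, Measurable (G s)) → Integrable B m →
  (∀ᵐ z ∂m, Continuous (fun s => G s z) ∧ ∀ s, 0 ≤ s → s ≤ t → |G s z| ≤ B z) →
  IntervalIntegrable (fun s => ∫ z, G s z ∂m) volume 0 t ∧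
    Integrable (fun z => ∫ s in (0 : ℝ)..t, G s z) m ∧
    ∫ z, (∫ s in (0 : ℝ)..t, G s z) ∂m = ∫ s in (0 : ℝ)..t, ∫ z, G s z ∂m

def S_time : Prop := ∀ (Ω : Type) [MeasurableSpace Ω] (m : Measure Ω) [SFinite m]
  (q : ℝ → Ω → ℝ) (a b h t : ℝ), 0 < a → 0 < b → 0 ≤ t → (∀ s, Measurable (q s)) →
  (∀ s z, 0 ≤ q s z) → (∀ s, 0 ≤ s → Integrable (q s) m) →
  (∀ᵐ z ∂m, Continuous (fun s => q s z) ∧ ∀ r, 0 ≤ r → q r z / (b + a * r ^ 2) +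
    ∫ s in (0 : ℝ)..r, 2 * a * s / (b + a * s ^ 2) ^ 2 * q s z ≤ q 0 z / b) →
  (∀ s, 0 ≤ s → ∫ z, q 0 z ∂m - ∫ z, q s z ∂m ≤ h) →
  ∫ z, q t z ∂m - ∫ z, q 0 z ∂m ≤ a * t ^ 2 / b * h

def S_blk : Prop := ∀ (α : Type) [MeasurableSpace α] (ν : Measure α) [IsProbabilityMeasure ν]
  (m s n : ℕ) (e : Fin m × Fin s ↪ Fin n),
  MeasurePreserving (fun (z : Fin n → α) (j : Fin m) (k : Fin s) => z (e (j, k)))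
    (Measure.pi fun _ => ν) (Measure.pi fun _ => Measure.pi fun _ => ν)

def S_hoef : Prop := ∀ (α : Type) [MeasurableSpace α] (ν : Measure α) [IsProbabilityMeasure ν]
  (m s n : ℕ) (e : Fin m × Fin s ↪ Fin n) (φ : (Fin s → α) → ℝ) (g : ℝ), Measurable φ →
  (∀ y, |φ y| ≤ 1) →
  ∫ z, Real.exp (g * ∑ j : Fin m, (φ (fun k => z (e (j, k))) -
    ∫ y, φ y ∂(Measure.pi fun _ => ν))) ∂(Measure.pi fun _ : Fin n => ν) ≤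
    Real.exp (m * g ^ 2 / 2)

def S_perm : Prop := ∀ (m s n : ℕ) (A : (Fin s ↪ Fin n) → ℝ) (B : ℝ), 1 ≤ m → m * s ≤ n →
  (∀ e : Fin m × Fin s ↪ Fin n,
    ∑ j : Fin m, A ((Function.Embedding.sectR j (Fin s)).trans e) ≤ m * B) →
  ∑ e, A e ≤ (n.descFactorial s : ℝ) * B

/-! ### Fixed number of particles -/

def S_fixI : Prop := ∀ (Φ : E3 → ℝ) (ε c a b : ℝ) (n : ℕ) (Fl : ℝ → Cfg n → Cfg n), IsPot Φ →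
  0 < ε → Par c a b → IsFlow Φ ε Fl → ∀ t, 0 ≤ t →
  IntegrableOn (fun z => Qn a b t (Fl t z) * tens (gau c a b 0) z) (excl ε n)

def S_fixA : Prop := ∀ (Φ : E3 → ℝ) (ε c a b : ℝ) (n : ℕ) (Fl : ℝ → Cfg n → Cfg n), IsPot Φ →
  0 < ε → Par c a b → IsFlow Φ ε Fl → 0 < pn c a b ε n → ∀ t, 0 ≤ t →
  (∫ z in excl ε n, Qn a b t (Fl t z) * tens (gau c a b 0) z) -
    ∫ z in excl ε n, Qn a b 0 z * tens (gau c a b 0) z ≤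
    a * t ^ 2 / b * (pn c a b ε n * -Real.log (pn c a b ε n))

def S_fixB : Prop := ∀ (Φ : E3 → ℝ) (ε c a b : ℝ) (n : ℕ) (Fl : ℝ → Cfg n → Cfg n), IsPot Φ →
  0 < ε → Par c a b → IsFlow Φ ε Fl → 0 < pn c a b ε n → ∀ t, 0 ≤ t →
  ∀ (X : Cfg n → ℝ) (M Λ : ℝ), Measurable X → (∀ z, |X z| ≤ M) →
  ∫ z, Real.exp (X z) * tens (gau c a b t) z ≤ Real.exp Λ →
  ∫ z in excl ε n, X (Fl t z) * tens (gau c a b 0) z ≤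
    pn c a b ε n * (Λ + (1 + a * t ^ 2 / b) * -Real.log (pn c a b ε n))

def S_fixC : Prop := ∀ (Φ : E3 → ℝ) (ε c a b : ℝ) (n : ℕ) (Fl : ℝ → Cfg n → Cfg n), IsPot Φ →
  0 < ε → Par c a b → IsFlow Φ ε Fl → 0 < pn c a b ε n → ∀ t, 0 ≤ t →
  ∀ (m s : ℕ) (e : Fin m × Fin s ↪ Fin n) (φ : Cfg s → ℝ) (g : ℝ), Measurable φ →
  (∀ y, |φ y| ≤ 1) → 0 < g →
  ∑ j : Fin m, ∫ z in excl ε n, φ (fun k => Fl t z (e (j, k))) * tens (gau c a b 0) z ≤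
    pn c a b ε n * (m * (∫ y, φ y * tens (gau c a b t) y) + m * g / 2 +
      (1 + a * t ^ 2 / b) * -Real.log (pn c a b ε n) / g)

def S_fixD : Prop := ∀ (Φ : E3 → ℝ) (ε c a b : ℝ) (n : ℕ) (Fl : ℝ → Cfg n → Cfg n), IsPot Φ →
  0 < ε → Par c a b → IsFlow Φ ε Fl → 0 < pn c a b ε n → ∀ t, 0 ≤ t →
  ∀ (m s : ℕ) (φ : Cfg s → ℝ) (g : ℝ), 1 ≤ m → m * s ≤ n → Measurable φ →
  (∀ y, |φ y| ≤ 1) → 0 < g →
  |(∫ z in excl ε n, (∑ e : Fin s ↪ Fin n, φ (fun k => Fl t z (e k))) * tens (gau c a b 0) z) -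
    (∫ y, φ y * tens (gau c a b t) y) * pn c a b ε n * (n.descFactorial s : ℝ)| ≤
    (n.descFactorial s : ℝ) * pn c a b ε n *
      (g / 2 + (1 + a * t ^ 2 / b) * -Real.log (pn c a b ε n) / (m * g))

def S_triv : Prop := ∀ (ε c a b t : ℝ) (n s : ℕ) (T : Cfg n → Cfg n) (φ : Cfg s → ℝ),
  Par c a b → Measurable T → Measurable φ → (∀ y, |φ y| ≤ 1) →
  |∫ y, φ y * tens (gau c a b t) y| ≤ 1 ∧
  |(∫ z in excl ε n, (∑ e : Fin s ↪ Fin n, φ (fun k => T z (e k))) * tens (gau c a b 0) z) -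
    (∫ y, φ y * tens (gau c a b t) y) * pn c a b ε n * (n.descFactorial s : ℝ)| ≤
    (n.descFactorial s : ℝ) * pn c a b ε n * 2

def S_fixE : Prop := ∀ (Φ : E3 → ℝ) (ε c a b K : ℝ) (n : ℕ) (Fl : ℝ → Cfg n → Cfg n), IsPot Φ →
  0 < ε → Par c a b → IsFlow Φ ε Fl → 0 ≤ K →
  (∀ y : E3, ∫ z in {z : E3 × E3 | ‖z.1 - y‖ ≤ ε}, gau c a b 0 z ≤ K) → ∀ t, 0 ≤ t →
  ∀ (s : ℕ) (φ : Cfg s → ℝ) (g : ℝ), 1 ≤ s → Measurable φ → (∀ y, |φ y| ≤ 1) → 0 < g → g ≤ 1 →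
  |(∫ z in excl ε n, (∑ e : Fin s ↪ Fin n, φ (fun k => Fl t z (e k))) * tens (gau c a b 0) z) -
    (∫ y, φ y * tens (gau c a b t) y) * pn c a b ε n * (n.descFactorial s : ℝ)| ≤
    (n.descFactorial s : ℝ) * pn c a b ε n * (g / 2 + 4 * s * (1 + a * t ^ 2 / b) * K / g * n)

/-! ### Grand canonical sums -/

def S_shift : Prop := ∀ (μ A : ℝ) (s : ℕ) (g : ℕ → ℝ), 0 ≤ μ → (∀ n : ℕ, |g n| ≤ A * (n + 1)) →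
  Summable (fun n : ℕ => μ ^ n / (n.factorial : ℝ) * ((n.descFactorial s : ℝ) * g n)) ∧
  Summable (fun m : ℕ => μ ^ m / (m.factorial : ℝ) * g (m + s)) ∧
  ∑' n : ℕ, μ ^ n / (n.factorial : ℝ) * ((n.descFactorial s : ℝ) * g n) =
    μ ^ s * ∑' m : ℕ, μ ^ m / (m.factorial : ℝ) * g (m + s)

def S_gc1 : Prop := ∀ (μ A B : ℝ) (p D : ℕ → ℝ), 0 < μ → 0 ≤ A → 0 ≤ B → p 0 = 1 →
  (∀ n : ℕ, 0 ≤ p n ∧ p (n + 1) ≤ p n) → (∀ n : ℕ, |D n| ≤ p n * (A + B * n)) →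
  0 < ∑' n : ℕ, μ ^ n / (n.factorial : ℝ) * p n ∧
    Summable (fun n : ℕ => μ ^ n / (n.factorial : ℝ) * p n) ∧
    Summable (fun n : ℕ => μ ^ n / (n.factorial : ℝ) * D n) ∧
    |∑' n : ℕ, μ ^ n / (n.factorial : ℝ) * D n| ≤
      (A + B * μ) * ∑' n : ℕ, μ ^ n / (n.factorial : ℝ) * p n

def S_gc2 : Prop := ∀ (η : ℝ) (p : ℕ → ℝ), 0 ≤ η → p 0 = 1 →
  (∀ n : ℕ, 0 ≤ p n ∧ p (n + 1) ≤ p n ∧ p n * (1 - n * η) ≤ p (n + 1)) →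
  ∀ m s : ℕ, p m ≤ 1 ∧ p (m + s) ≤ p m ∧ p m - p (m + s) ≤ s * (m + s) * η * p m

def S_gc : Prop := ∀ (μ η α β θ : ℝ) (s : ℕ) (p I : ℕ → ℝ), 0 < μ → 0 ≤ η → 0 ≤ α → 0 ≤ β →
  |θ| ≤ 1 → p 0 = 1 → (∀ n : ℕ, 0 ≤ p n ∧ p (n + 1) ≤ p n ∧ p n * (1 - n * η) ≤ p (n + 1)) →
  (∀ n : ℕ, |I n - θ * p n * (n.descFactorial s : ℝ)| ≤
    (n.descFactorial s : ℝ) * p n * (α + β * n)) →
  |(μ ^ s)⁻¹ * ((∑' n : ℕ, μ ^ n / (n.factorial : ℝ) * p n)⁻¹ *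
    ∑' n : ℕ, μ ^ n / (n.factorial : ℝ) * I n) - θ| ≤ α + β * (μ + s) + s * (μ + s) * η

def S_main : Prop := ∀ (Φ : E3 → ℝ) (c a b T : ℝ) (s : ℕ), IsPot Φ → Par c a b → 1 ≤ s →
  ∃ C : ℝ, ∀ ε : ℝ, 0 < ε → ε < 1 → ∀ Fl : ∀ n : ℕ, ℝ → Cfg n → Cfg n,
    (∀ n, IsFlow Φ ε (Fl n)) → ∀ t, 0 ≤ t → t ≤ T → ∀ φ : Cfg s → ℝ, Measurable φ →
    (∀ y, |φ y| ≤ 1) →
    |marg (gau c a b 0) ε Fl s t φ - ∫ y, φ y * tens (gau c a b t) y| ≤ C * Real.sqrt ε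

end Vale.Agent.P119
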