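import Vale.Agent.P119.Stm
import Vale.Agent.P119.Defs2

/-! Statements of the steps on the kinetic side. -/

open MeasureTheory Filter Topology Set
open scoped InnerProductSpace

namespace Vale.Agent.P119

/-- The scattering map is elastic. -/
def Elastic (S : E3 → E3 → E3) : Prop :=
  ∀ V : E3, V ≠ 0 → ∀ᵐ ρ : (Submodule.span ℝ {V})ᗮ, ‖ρ‖ < 1 → ‖S V ρ‖ = ‖V‖

def S_scat : Prop := ∀ (Φ : E3 → ℝ) (V ρ V' : E3), IsPot Φ → V ≠ 0 → Scat Φ V ρ V' → ‖V'‖ = ‖V‖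

def S_bal : Prop := ∀ (v w V' : E3), ‖V'‖ = ‖v - w‖ →
  ‖(1 / 2 : ℝ) • (v + w + V')‖ ^ 2 + ‖(1 / 2 : ℝ) • (v + w - V')‖ ^ 2 = ‖v‖ ^ 2 + ‖w‖ ^ 2 ∧
  ∀ (c a b t : ℝ) (x : E3), gau c a b t (x, (1 / 2 : ℝ) • (v + w + V')) *
    gau c a b t (x, (1 / 2 : ℝ) • (v + w - V')) = gau c a b t (x, v) * gau c a b t (x, w)

def S_disc : Prop := ∀ (V : E3) (F : (Submodule.span ℝ {V})ᗮ → ℝ) (B : ℝ), V ≠ 0 → 0 ≤ B →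
  (∀ᵐ ρ : (Submodule.span ℝ {V})ᗮ, ‖ρ‖ < 1 → |F ρ| ≤ B) →
  |∫ ρ in {ρ : (Submodule.span ℝ {V})ᗮ | ‖ρ‖ < 1}, F ρ| ≤ 4 * B

def S_Qbd : Prop := ∀ l₀ : ℝ, 0 < l₀ → ∃ C : ℝ, 0 ≤ C ∧ ∀ (S : E3 → E3 → E3) (f : E3 × E3 → ℝ)
  (c a b t l M N : ℝ) (x v : E3), Elastic S → l₀ ≤ l → 0 ≤ M → 0 ≤ N →
  (∀ u, |f (x, u)| ≤ M * Real.exp (-(l * ‖u‖ ^ 2))) →
  (∀ u, |gau c a b t (x, u)| ≤ M * Real.exp (-(l * ‖u‖ ^ 2))) →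
  (∀ u, |f (x, u) - gau c a b t (x, u)| ≤ N * Real.exp (-(l * ‖u‖ ^ 2))) →
  |Qcol S f x v| ≤ C * M * N * (1 + ‖v‖) * Real.exp (-(l * ‖v‖ ^ 2))

def S_gron : Prop := ∀ (ι : Type) (h D : ℝ → ι → ℝ) (r : ι → ℝ) (T l C N₀ : ℝ), 0 < T → 0 < l →
  0 ≤ C → 0 ≤ N₀ → (∀ i, 0 ≤ r i) → (∀ i, h 0 i = 0) →
  (∀ t ∈ Icc 0 T, ∀ i, HasDerivWithinAt (fun s => h s i) (D t i) (Icc 0 T) t) →
  (∀ t ∈ Icc 0 T, ∀ i, |h t i| ≤ N₀ * Real.exp (-(l * r i ^ 2))) →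
  (∀ t ∈ Icc 0 T, ∀ l' N : ℝ, l / 2 ≤ l' → l' ≤ l → 0 ≤ N →
    (∀ i, |h t i| ≤ N * Real.exp (-(l' * r i ^ 2))) →
    ∀ i, |D t i| ≤ C * N * (1 + r i) * Real.exp (-(l' * r i ^ 2))) →
  ∀ t ∈ Icc 0 T, ∀ i, h t i = 0

def S_uniq : Prop := ∀ (S : E3 → E3 → E3) (β c a b T : ℝ) (f : ℝ → E3 × E3 → ℝ), Elastic S →
  0 < β → Par c a b → Regular S β (gau c a b 0) T f → ∀ t ∈ Icc 0 T, f t = gau c a b t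

def S_reg : Prop := ∀ (S : E3 → E3 → E3) (β c a b T : ℝ), Elastic S → 2 * β ≤ b → Par c a b →
  Regular S β (gau c a b 0) T (gau c a b)

def S_L1 : Prop := ∀ (Ω : Type) [MeasurableSpace Ω] (μ : Measure Ω) (F G : Ω → ℝ) (B : ℝ),
  Integrable F μ → Integrable G μ →
  (∀ φ : Ω → ℝ, Measurable φ → (∀ y, |φ y| ≤ 1) →
    |∫ y, φ y * F y ∂μ - ∫ y, φ y * G y ∂μ| ≤ B) → ∫ y, |F y - G y| ∂μ ≤ B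

end Vale.Agent.P119
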