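import Vale.Agent.P119.Stm

/-! Exchange of the time integral and the phase space integral. -/

open MeasureTheory Filter Topology Set
open scoped InnerProductSpace

namespace Vale.Agent.P119

namespace SwapAux

/-- The statement when the hypotheses hold at every point. -/
theorem all {Ω : Type} [MeasurableSpace Ω] (m : Measure Ω) [SFinite m] (G : ℝ → Ω → ℝ)
    (B : Ω → ℝ) (t : ℝ) (ht : 0 ≤ t) (hG : ∀ s, Measurable (G s)) (hB : Integrable B m)
    (hc : ∀ z, Continuous fun s => G s z) (hb : ∀ z s, 0 ≤ s → s ≤ t → |G s z| ≤ |B z|) :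
    IntervalIntegrable (fun s => ∫ z, G s z ∂m) volume 0 t ∧
      Integrable (fun z => ∫ s in (0 : ℝ)..t, G s z) m ∧
      ∫ z, (∫ s in (0 : ℝ)..t, G s z) ∂m = ∫ s in (0 : ℝ)..t, ∫ z, G s z ∂m := by
  have hm : Measurable (Function.uncurry G) :=
    measurable_uncurry_of_continuous_of_measurable hc hG
  have h1 : Integrable (fun p : ℝ × Ω => (1 : ℝ) * |B p.2|)
      ((volume.restrict (Ioc 0 t)).prod m) :=
    Integrable.mul_prod (f := fun _ => (1 : ℝ)) (g := fun z => |B z|) (integrable_const _) hB.abs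
  have hI : Integrable (Function.uncurry G) ((volume.restrict (Ioc 0 t)).prod m) := by
    refine h1.mono' hm.aestronglyMeasurable ?_
    have h2 : ∀ᵐ p : ℝ × Ω ∂((volume.restrict (Ioc 0 t)).prod m), p.1 ∈ Ioc 0 t :=
      (Measure.quasiMeasurePreserving_fst.ae (ae_restrict_mem measurableSet_Ioc))
    filter_upwards [h2] with p hp
    rw [one_mul]
    exact hb p.2 p.1 hp.1.le hp.2
  refine ⟨?_, ?_, ?_⟩
  · rw [intervalIntegrable_iff_integrableOn_Ioc_of_le ht]
    exact hI.integral_prod_left
  · simp only [intervalIntegral.integral_of_le ht]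
    exact hI.integral_prod_right
  · simp only [intervalIntegral.integral_of_le ht]
    exact (integral_integral_swap hI).symm

end SwapAux

theorem s_swap : S_swap := by
  intro Ω _ m _ G B t ht hG hB h
  obtain ⟨N, hN, hNm, hN0⟩ := exists_measurable_superset_of_null (ae_iff.1 h)
  have good : ∀ z, z ∉ N → Continuous (fun s => G s z) ∧ ∀ s, 0 ≤ s → s ≤ t → |G s z| ≤ B z :=
    fun z hz => by_contra fun hn => hz (hN hn)
  have hae : ∀ᵐ z ∂m, z ∉ N := measure_eq_zero_iff_ae_notMem.1 hN0
  obtain ⟨a1, a2, a3⟩ := SwapAux.all m (fun s => indicator Nᶜ (G s)) B t ht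
    (fun s => (hG s).indicator hNm.compl) hB
    (fun z => by
      by_cases hz : z ∈ N
      · simpa [hz] using continuous_const
      · simpa [hz] using (good z hz).1)
    (fun z s h0 h1 => by
      by_cases hz : z ∈ N
      · simp [hz]
      · simpa [hz] using ((good z hz).2 s h0 h1).trans (le_abs_self _))
  have e1 : (fun s => ∫ z, indicator Nᶜ (G s) z ∂m) = fun s => ∫ z, G s z ∂m :=
    funext fun s => integral_congr_ae (hae.mono fun z hz => by simp [hz])
  have e2 : (fun z => ∫ s in (0 : ℝ)..t, indicator Nᶜ (G s) z) =ᵐ[m]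
      fun z => ∫ s in (0 : ℝ)..t, G s z := hae.mono fun z hz => by simp [hz]
  rw [e1] at a1 a3
  exact ⟨a1, a2.congr e2, (integral_congr_ae e2).symm.trans a3⟩

end Vale.Agent.P119
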