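import Vale.Agent.P119.Stm

/-! The time integration step. -/

open MeasureTheory Filter Topology Set
open scoped InnerProductSpace

namespace Vale.Agent.P119

namespace TimeAux

theorem wcont {a b : ℝ} (ha : 0 < a) (hb : 0 < b) :
    Continuous fun s : ℝ => 2 * a * s / (b + a * s ^ 2) ^ 2 :=
  Continuous.div (by fun_prop) (by fun_prop) fun s => by positivity

theorem wint {a b : ℝ} (ha : 0 < a) (hb : 0 < b) (t : ℝ) :
    ∫ s in (0 : ℝ)..t, 2 * a * s / (b + a * s ^ 2) ^ 2 = 1 / b - 1 / (b + a * t ^ 2) := by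
  have h : ∀ s ∈ uIcc (0 : ℝ) t, HasDerivAt (fun s : ℝ => -(b + a * s ^ 2)⁻¹)
      (2 * a * s / (b + a * s ^ 2) ^ 2) s := by
    intro s _
    have h1 : HasDerivAt (fun s : ℝ => b + a * s ^ 2) (a * (2 * s)) s := by
      simpa using ((hasDerivAt_pow 2 s).const_mul a).const_add b
    have h2 := (h1.fun_inv (by positivity)).fun_neg
    refine h2.congr_deriv ?_
    ring
  rw [intervalIntegral.integral_eq_sub_of_hasDerivAt h ((wcont ha hb).intervalIntegrable _ _)]
  simp only [one_div]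
  ring

theorem wbd {a b s t x y : ℝ} (ha : 0 < a) (hb : 0 < b) (hs : 0 ≤ s) (hst : s ≤ t) (hy : 0 ≤ y)
    (h : x / (b + a * s ^ 2) ≤ y / b) :
    2 * a * s / (b + a * s ^ 2) ^ 2 * x ≤ 2 * a * t / b ^ 2 * y := by
  have h1 : b ≤ b + a * s ^ 2 := le_add_of_nonneg_right (by positivity)
  have ht : 0 ≤ t := hs.trans hst
  calc 2 * a * s / (b + a * s ^ 2) ^ 2 * x
      = 2 * a * s / (b + a * s ^ 2) * (x / (b + a * s ^ 2)) := by field_simp
    _ ≤ 2 * a * s / (b + a * s ^ 2) * (y / b) := mul_le_mul_of_nonneg_left h (by positivity)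
    _ ≤ 2 * a * t / b * (y / b) := by gcongr
    _ = _ := by field_simp

end TimeAux

open TimeAux in
theorem s_time (hswap : S_swap) : S_time := by
  intro Ω _ m _ q a b h t ha hb ht hm h0 hi hp hh
  have hw : ∀ s : ℝ, 0 ≤ s → 0 ≤ 2 * a * s / (b + a * s ^ 2) ^ 2 := fun s hs => by positivity
  obtain ⟨h1, h2, h3⟩ := hswap Ω m (fun s z => 2 * a * s / (b + a * s ^ 2) ^ 2 * q s z)
    (fun z => 2 * a * t / b ^ 2 * q 0 z) t ht (fun s => (hm s).const_mul _)
    ((hi 0 le_rfl).const_mul _) (by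
      filter_upwards [hp] with z hz
      refine ⟨(wcont ha hb).mul hz.1, fun s hs hst => ?_⟩
      rw [abs_of_nonneg (mul_nonneg (hw s hs) (h0 s z))]
      refine wbd ha hb hs hst (h0 0 z) (le_trans (le_add_of_nonneg_right ?_) (hz.2 s hs))
      exact intervalIntegral.integral_nonneg hs fun u hu => mul_nonneg (hw u hu.1) (h0 u z))
  have h4 : ∫ z, (q t z / (b + a * t ^ 2) +
      ∫ s in (0 : ℝ)..t, 2 * a * s / (b + a * s ^ 2) ^ 2 * q s z) ∂m ≤ ∫ z, q 0 z / b ∂m :=
    integral_mono_ae (((hi t ht).div_const _).add h2) ((hi 0 le_rfl).div_const _)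
      (hp.mono fun z hz => hz.2 t ht)
  rw [integral_add ((hi t ht).div_const _) h2, h3, integral_div, integral_div] at h4
  simp only [integral_const_mul] at h1 h4
  have h5 : ∫ s in (0 : ℝ)..t, 2 * a * s / (b + a * s ^ 2) ^ 2 * (∫ z, q 0 z ∂m - h) ≤
      ∫ s in (0 : ℝ)..t, 2 * a * s / (b + a * s ^ 2) ^ 2 * ∫ z, q s z ∂m :=
    intervalIntegral.integral_mono_on ht
      (((wcont ha hb).mul continuous_const).intervalIntegrable _ _) h1 fun s hs =>
      mul_le_mul_of_nonneg_left (by linarith [hh s hs.1]) (hw s hs.1)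
  rw [intervalIntegral.integral_mul_const, wint ha hb] at h5
  have hk : 0 < b + a * t ^ 2 := by positivity
  have h6 : (∫ z, q t z ∂m) / (b + a * t ^ 2) ≤
      (∫ z, q 0 z ∂m) / b - (1 / b - 1 / (b + a * t ^ 2)) * (∫ z, q 0 z ∂m - h) := by linarith
  rw [div_le_iff₀ hk] at h6
  have e : ((∫ z, q 0 z ∂m) / b - (1 / b - 1 / (b + a * t ^ 2)) * (∫ z, q 0 z ∂m - h)) *
      (b + a * t ^ 2) = ∫ z, q 0 z ∂m + a * t ^ 2 / b * h := by
    field_simp
    ring
  linarith

end Vale.Agent.P119
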