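import Vale.Agent.P119.Stm2

/-! Uniqueness of the regular solution with Gaussian datum. -/

open MeasureTheory Filter Topology Set
open scoped InnerProductSpace

namespace Vale.Agent.P119

namespace UniqAux

theorem g0 (c a b t : ℝ) (x v : E3) : gau c a b 0 (x - t • v, v) = gau c a b t (x, v) := by
  simp [gau]

end UniqAux

theorem s_uniq (hQbd : S_Qbd) (hgron : S_gron) : S_uniq := by
  intro S β c a b T f hS hβ ⟨hc, ha, hb, _⟩ ⟨f0, fp, fd, M, hM⟩ t ht
  rcases (ht.1.trans ht.2).eq_or_lt with hT | hT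
  · obtain rfl : t = 0 := le_antisymm (ht.2.trans hT.ge) ht.1
    exact f0
  have l0 : 0 < min (2 * β) b := lt_min (by positivity) hb
  have l1 := min_le_left (2 * β) b
  have l2 := min_le_right (2 * β) b
  generalize min (2 * β) b = l at *
  have m0 : 0 ≤ max M c := hc.le.trans (le_max_right _ _)
  have bf : ∀ t ∈ Icc 0 T, ∀ l', l' ≤ l → ∀ x u : E3,
      |f t (x, u)| ≤ max M c * Real.exp (-(l' * ‖u‖ ^ 2)) := fun t ht l' hl x u => by
    have k := (hM t ht x u).trans (le_max_left M c)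
    rw [abs_of_nonneg ((fp t ht).1 _), Real.exp_neg, ← div_eq_mul_inv,
      le_div_iff₀' (Real.exp_pos _)]
    exact (mul_le_mul_of_nonneg_right (Real.exp_le_exp.2
      (mul_le_mul_of_nonneg_right (hl.trans l1) (sq_nonneg _))) ((fp t ht).1 _)).trans k
  have bg : ∀ t l', l' ≤ l → ∀ x u : E3,
      |gau c a b t (x, u)| ≤ max M c * Real.exp (-(l' * ‖u‖ ^ 2)) := fun t l' hl x u => by
    rw [abs_of_pos (gau_pos hc _ _ _ _)]
    refine mul_le_mul (le_max_right _ _) (Real.exp_le_exp.2 (neg_le_neg ?_)) (Real.exp_pos _).le m0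
    have := mul_le_mul_of_nonneg_right (hl.trans l2) (sq_nonneg ‖u‖)
    have : 0 ≤ a * ‖x - t • u‖ ^ 2 := by positivity
    linarith
  obtain ⟨C, C0, hC⟩ := hQbd (l / 2) (half_pos l0)
  have k := hgron (E3 × E3) (fun t i => f t (i.1 + t • i.2, i.2) - gau c a b 0 i)
    (fun t i => Qcol S (f t) (i.1 + t • i.2) i.2) (fun i => ‖i.2‖) T l (C * max M c)
    (2 * max M c) hT l0 (by positivity) (by positivity) (fun i => norm_nonneg _)
    (fun i => by simp [f0]) (fun t ht i => (fd t ht i.1 i.2).sub_const _)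
    (fun t ht i => (abs_sub _ _).trans (by
      linarith [bf t ht l le_rfl (i.1 + t • i.2) i.2, bg 0 l le_rfl i.1 i.2]))
    (fun t ht l' N h1 h2 hN h i => hC S (f t) c a b t l' _ N _ _ hS h1 m0 hN
      (bf t ht l' h2 _) (bg t l' h2 _) fun u => by
        have k := h (i.1 + t • i.2 - t • u, u)
        simp only [sub_add_cancel, UniqAux.g0] at k
        exact k) t ht
  funext z
  have k2 := k (z.1 - t • z.2, z.2)
  simp only [sub_add_cancel, UniqAux.g0] at k2
  exact sub_eq_zero.1 k2

end Vale.Agent.P119
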