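import Vale.Agent.P119.Stm

/-! The virial inequality and the sign of the potential energy. -/

open MeasureTheory Filter Topology Set
open scoped InnerProductSpace

namespace Vale.Agent.P119

namespace VirAux

theorem swap {n : ℕ} (f : Fin n → Fin n → ℝ) :
    ∑ i, ∑ j ∈ Finset.univ.erase i, f i j = ∑ i, ∑ j ∈ Finset.univ.erase i, f j i :=
  Finset.sum_comm' fun i j => by
    simp only [Finset.mem_univ, Finset.mem_erase, true_and, and_true]
    exact ne_comm

theorem vir {n : ℕ} (y : Fin n → E3) (G : E3 → E3) (hodd : ∀ v, G (-v) = -G v)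
    (hneg : ∀ v, ⟪v, G v⟫_ℝ ≤ 0) :
    ∑ i, ∑ j ∈ Finset.univ.erase i, ⟪y i, G (y i - y j)⟫_ℝ ≤ 0 := by
  have h1 := swap fun i j => ⟪y i, G (y i - y j)⟫_ℝ
  have h2 : ∑ i, ∑ j ∈ Finset.univ.erase i, ⟪y i, G (y i - y j)⟫_ℝ +
      ∑ i, ∑ j ∈ Finset.univ.erase i, ⟪y j, G (y j - y i)⟫_ℝ ≤ 0 := by
    rw [← Finset.sum_add_distrib]
    refine Finset.sum_nonpos fun i _ => ?_
    rw [← Finset.sum_add_distrib]
    refine Finset.sum_nonpos fun j _ => ?_
    have := hneg (y i - y j)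
    rw [← neg_sub (y i) (y j), hodd, inner_neg_right]
    rw [inner_sub_left] at this
    linarith
  linarith

end VirAux

theorem s_vir (hpot : S_pot) : S_vir := by
  intro Φ ε n hΦ hε
  obtain ⟨h1, h2, h3⟩ := hpot Φ hΦ
  refine ⟨fun x => ?_, fun z hz => ?_, fun γ hγ t => ?_⟩
  · have h := VirAux.vir (fun i => ε⁻¹ • x i) (gradient Φ) h2 h3
    have e : ∀ i, ⟪x i, force Φ ε x i⟫_ℝ = -∑ j ∈ Finset.univ.erase i,
        ⟪ε⁻¹ • x i, gradient Φ (ε⁻¹ • x i - ε⁻¹ • x j)⟫_ℝ := fun i => by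
      unfold force
      rw [inner_neg_right, inner_smul_right, inner_sum, Finset.mul_sum]
      refine congrArg Neg.neg (Finset.sum_congr rfl fun j _ => ?_)
      rw [real_inner_smul_left, smul_sub]
    rw [Finset.sum_congr rfl fun i _ => e i, Finset.sum_neg_distrib]
    linarith
  · unfold Un
    rw [Finset.sum_eq_zero fun i _ => Finset.sum_eq_zero fun j hj => ?_, mul_zero]
    refine hΦ.2.2.1 _ ?_
    have := hz i j (Finset.ne_of_mem_erase hj).symm
    rw [norm_smul, Real.norm_eq_abs, abs_of_pos (inv_pos.2 hε), ← div_eq_inv_mul,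
      one_le_div hε]
    exact this.le
  · have hp : ∀ i, ∀ j ∈ Finset.univ.erase i, 0 ≤ Φ (ε⁻¹ • ((γ t i).1 - (γ t j).1)) :=
      fun i j hj => (h1 _ (hγ.1.imp id fun h => smul_ne_zero (inv_pos.2 hε).ne'
        (sub_ne_zero.2 (h t i j (Finset.ne_of_mem_erase hj).symm)))).1
    have hq : ∀ i ∈ (Finset.univ : Finset (Fin n)),
        0 ≤ ∑ j ∈ Finset.univ.erase i, Φ (ε⁻¹ • ((γ t i).1 - (γ t j).1)) :=
      fun i _ => Finset.sum_nonneg (hp i)
    unfold Un
    refine ⟨mul_nonneg (by norm_num) (Finset.sum_nonneg hq), fun i j hij => ?_⟩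
    have a1 := Finset.single_le_sum (hp i) (Finset.mem_erase.2 ⟨hij.symm, Finset.mem_univ j⟩)
    have a2 := Finset.single_le_sum hq (Finset.mem_univ i)
    linarith

end Vale.Agent.P119
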